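import Vale.Agent.P233.H254.FlowApi

/-! P233, part E: assembly of the blocks. -/

set_option linter.all false

open MeasureTheory Filter Topology Set
open scoped ENNReal NNReal InnerProductSpace

universe u

namespace Vale.Agent.P233

theorem asm_E (h1 : Blk_E1.{u}) (h2 : Blk_E2.{u}) (h3 : Blk_E3.{u}) (h45 : Blk_E45)
    (h45F : Blk_E45F.{u}) (h6a : Blk_E6a.{u}) (h6 : Blk_E6.{u}) :
    Blk_E.{u} := by
  intro M _ _ _ _ m E _ _ _ Gr HO e W K N κ hS hSt hF hW hSB hFR p R hA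
  have hC := FA.gam hS
  have hB := FA.bei hS
  have : SigmaFinite m := FA.sf hS
  have hGA : ∀ i j, (sob m).Γ (e i) (e j) ∈ (sob m).W := fun i j =>
    (hC.Γ_mem hB (hSt.testI i).1 (hSt.testI j).1).1
  choose Gt hGt using fun i j => h1 m Gr HO e K N hS hSt _ (hGA i j)
  have hstr : ∀ (p : M) (s₀ C₀ : ℝ) (Y : ℝ → M → M), Flow Gr HO p s₀ C₀ Y →
      StrongV Gr HO e Gt p s₀ C₀ Y := h2 m Gr HO e Gt K N hS hSt hGt
  have hrk : RankConst Gr HO Gt := h3 m Gr HO e Gt W K N hS hSt hGt hstr hW hSB hFR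
  refine h6 m K N κ hS ?_ p R hA
  intro C₀ hC₀ hadm s₀ hs₀
  filter_upwards [hrk] with q hq
  obtain ⟨Y, Hh, Λ, hfl⟩ := hF q s₀ C₀ hs₀.1 hs₀.2.le hC₀
  refine h6a m Gr HO e K N κ hS hSt q s₀ C₀ Y Hh Λ hfl hadm ?_
  exact h45F m Gr HO e Gt K N κ h45 hS hSt hGt q s₀ C₀ Y Hh Λ hfl hadm
    (hq s₀ C₀ Y hfl.flow)

end Vale.Agent.P233
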