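import Vale.Agent.P233.H254.FlowApi

/-! P233, part E: block E45F (from the per-curve theorem to almost every curve of a flow). -/

set_option linter.all false

open MeasureTheory Filter Topology Set
open scoped ENNReal NNReal InnerProductSpace

universe u v

namespace Vale.Agent.P233.FA

section

variable {M : Type u} [MetricSpace M] [MeasurableSpace M] [BorelSpace M]
  [SecondCountableTopology M] {m : Measure M} {K N κ : ℝ}
variable {E : Type v} [NormedAddCommGroup E] [InnerProductSpace ℝ E]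
variable {Gr : (M →ₘ[m] ℝ) → M → E} {HO : (M →ₘ[m] ℝ) → M → E →L[ℝ] E} {e : ℕ → M →ₘ[m] ℝ}
variable {p : M} {s₀ C₀ : ℝ} {Y : ℝ → M → M}

theorem eT (hS : Stat (sob m) Gr HO e) (i : ℕ) : e i ∈ (sob m).Test := (hS.testI i).1

theorem eW (h : Std m K N) (hS : Stat (sob m) Gr HO e) (i : ℕ) : e i ∈ (sob m).W :=
  ((gam h).mem_test_iff.1 (eT hS i)).1

/-- the velocity is bounded and along the curves of constant norm -/
theorem vel_norm (hf : Flow Gr HO p s₀ C₀ Y) [SFinite m] :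
    ∀ᵐ x ∂m, ∀ᵐ t ∂(volume.restrict (Ioo (0 : ℝ) 1)), ‖vel Gr p s₀ C₀ Y t x‖ = spd p s₀ C₀ x := by
  filter_upwards [(ns hf).ae' hf.unit, hf.rad] with x h1 h2
  filter_upwards [h1, ae_restrict_mem measurableSet_Ioo] with t h3 ht
  unfold vel
  rw [norm_smul, Real.norm_of_nonneg (spd_nonneg hf.hs₀ x)]
  by_cases hx : dist p x ^ 2 < 2 * C₀ * (1 + s₀)
  · have h4 := h2 hx t ⟨ht.1, ht.2.le⟩
    have hs := hf.hs₀
    have h5 : dist p (Y t x) ≤ dist p x := by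
      rw [h4]
      have : (t + s₀) / (1 + s₀) ≤ 1 := by
        rw [div_le_one (by linarith)]; linarith [ht.2]
      calc (t + s₀) / (1 + s₀) * dist p x ≤ 1 * dist p x :=
            mul_le_mul_of_nonneg_right this dist_nonneg
        _ = _ := one_mul _
    have h6 : dist p (Y t x) ^ 2 < 2 * C₀ * (1 + s₀) :=
      lt_of_le_of_lt (pow_le_pow_left₀ dist_nonneg h5 2) hx
    rw [h3 h6, mul_one]
  · have : spd p s₀ C₀ x = 0 := by unfold spd; rw [if_neg hx]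
    rw [this, zero_mul]

theorem rdir_sm (h : Std m K N) (hS : Stat (sob m) Gr HO e) :
    StronglyMeasurable (rdir Gr p s₀ C₀) := hS.gmeas _ (dtr_mem_W h p _)

/-- `y ↦ HO b y (rdir y)` is in `L²` -/
theorem hr_memLp (h : Std m K N) (hS : Stat (sob m) Gr HO e) {b : M →ₘ[m] ℝ}
    (hb : b ∈ (sob m).Test) : MemLp (fun y => HO b y (rdir Gr p s₀ C₀ y)) 2 m := by
  obtain ⟨c, hc⟩ := hS.hess.norm
  obtain ⟨L, hL, hL1, -⟩ := hc b hb
  refine hL.mono (aesm_apply (hS.hess.meas b hb) (rdir_sm h hS).aestronglyMeasurable) ?_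
  filter_upwards [hL1, rdir_norm_le h hS.grad p s₀ C₀] with y h1 h2
  calc ‖HO b y (rdir Gr p s₀ C₀ y)‖ ≤ ‖HO b y‖ * ‖rdir Gr p s₀ C₀ y‖ :=
        ContinuousLinearMap.le_opNorm _ _
    _ ≤ ‖HO b y‖ * 1 := by gcongr
    _ = ‖HO b y‖ := mul_one _
    _ ≤ L y := h1
    _ ≤ ‖L y‖ := le_abs_self _

theorem ii_sub {f : ℝ → ℝ} (h : ∀ s ∈ Ioo (0 : ℝ) 1, IntervalIntegrable f volume s 1) {s t : ℝ}
    (hs : s ∈ Ioo (0 : ℝ) 1) (ht : t ∈ Ioo (0 : ℝ) 1) : IntervalIntegrable f volume s t :=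
  (h s hs).trans (h t ht).symm

theorem ii_congr {f g : ℝ → ℝ} (h : ∀ᵐ t ∂(volume.restrict (Ioo (0 : ℝ) 1)), f t = g t) {s t : ℝ}
    (hs : s ∈ Ioo (0 : ℝ) 1) (ht : t ∈ Ioo (0 : ℝ) 1) :
    f =ᵐ[volume.restrict (uIoc s t)] g := by
  refine ae_restrict_of_ae_restrict_of_subset ?_ h
  intro r hr
  rw [uIoc, mem_Ioc] at hr
  exact ⟨lt_of_le_of_lt (le_min hs.1.le ht.1.le) hr.1, lt_of_le_of_lt hr.2 (max_lt hs.2 ht.2)⟩

/-- the Gram matrix along the curves -/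
theorem gram_deriv (h : Std m K N) (hS : Stat (sob m) Gr HO e) [SFinite m]
    (hf : Flow Gr HO p s₀ C₀ Y) (i j : ℕ) :
    ∀ᵐ x ∂m, ∀ᵐ t ∂(volume.restrict (Ioo (0 : ℝ) 1)),
      ⟪Gr ((sob m).Γ (e i) (e j)) (Y t x), vel Gr p s₀ C₀ Y t x⟫_ℝ
        = ⟪HO (e i) (Y t x) (vel Gr p s₀ C₀ Y t x), Gr (e j) (Y t x)⟫_ℝ
          + ⟪Gr (e i) (Y t x), HO (e j) (Y t x) (vel Gr p s₀ C₀ Y t x)⟫_ℝ := by
  filter_upwards [(ns hf).ae' (hS.hess.prod _ (eT hS i) _ (eT hS j)),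
    (ns hf).ae' (hS.hess.symm _ (eT hS i)), (ns hf).ae' (hS.hess.symm _ (eT hS j))] with x h1 h2 h3
  filter_upwards [h1, h2, h3] with t h4 h5 h6
  rw [h4, inner_add_left, h5, h6, real_inner_comm]

end

end Vale.Agent.P233.FA

namespace Vale.Agent.P233

open FA

theorem blk_E45F : Blk_E45F.{u} := by
  intro M _ _ _ _ m E _ _ _ Gr HO e Gt K N κ hE45 hStd hS hPr p s₀ C₀ Y Hh Λ hFH hκ hrank
  haveI : SigmaFinite m := sf hStd
  have hC := gam hStd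
  have hB := bei hStd
  have hf := hFH.flow
  have hn := ns hf
  have hW := eW hStd hS
  have hT := eT hS
  -- measurability of `a`
  have A1 : ∀ᵐ x ∂m, ∀ i, AEStronglyMeasurable
      (fun t => HO (e i) (Y t x) (rdir Gr p s₀ C₀ (Y t x))) (volume.restrict (Ioc (0 : ℝ) 1)) :=
    ae_all_iff.2 fun i => hn.aesm (f := fun y => HO (e i) y (rdir Gr p s₀ C₀ y))
      (hr_memLp hStd hS (hT i)).1
  have A2 : ∀ᵐ x ∂m, ∀ i, ∀ s ∈ Ioo (0 : ℝ) 1,
      IntervalIntegrable (fun t => ‖HO (e i) (Y t x) (rdir Gr p s₀ C₀ (Y t x))‖ ^ 2) volume s 1 :=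
    ae_all_iff.2 fun i => hn.sq_intervalIntegrable (f := fun y => HO (e i) y (rdir Gr p s₀ C₀ y))
      (hr_memLp hStd hS (hT i))
  have A3 := vel_norm hf
  have A4 : ∀ᵐ x ∂m, ∀ i j, ∀ᵐ t ∂(volume.restrict (Ioo (0 : ℝ) 1)),
      Gt i j (Y t x) = ⟪Gr (e i) (Y t x), Gr (e j) (Y t x)⟫_ℝ := by
    refine ae_all_iff.2 fun i => ae_all_iff.2 fun j => ?_
    refine hn.ae' (Q := fun y => Gt i j y = ⟪Gr (e i) y, Gr (e j) y⟫_ℝ) ?_
    filter_upwards [(hPr i j).2.1, hS.grad.inner _ (hW i) _ (hW j)] with y h1 h2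
    rw [h1, h2]
  have A5 : ∀ᵐ x ∂m, ∀ i j, ∀ t ∈ Ioc (0 : ℝ) 1, Gt i j (Y t x)
      = (sob m).Γ (e i) (e j) x - ∫ r in t..1, ⟪Gr ((sob m).Γ (e i) (e j)) (Y r x),
          vel Gr p s₀ C₀ Y r x⟫_ℝ :=
    ae_all_iff.2 fun i => ae_all_iff.2 fun j => (hPr i j).2.2 p s₀ C₀ Y hf
  have A6 : ∀ᵐ x ∂m, ∀ i j, ∀ s ∈ Ioo (0 : ℝ) 1,
      IntervalIntegrable (fun r => ⟪Gr ((sob m).Γ (e i) (e j)) (Y r x),
          vel Gr p s₀ C₀ Y r x⟫_ℝ) volume s 1 := by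
    refine ae_all_iff.2 fun i => ae_all_iff.2 fun j => ?_
    filter_upwards [hf.ac1 _ (hC.Γ_mem hB (hT i) (hT j)).1] with x hx
    exact hx.1
  have A7 : ∀ᵐ x ∂m, ∀ i j, ∀ᵐ t ∂(volume.restrict (Ioo (0 : ℝ) 1)),
      ⟪Gr ((sob m).Γ (e i) (e j)) (Y t x), vel Gr p s₀ C₀ Y t x⟫_ℝ
        = ⟪HO (e i) (Y t x) (vel Gr p s₀ C₀ Y t x), Gr (e j) (Y t x)⟫_ℝ
          + ⟪Gr (e i) (Y t x), HO (e j) (Y t x) (vel Gr p s₀ C₀ Y t x)⟫_ℝ :=
    ae_all_iff.2 fun i => ae_all_iff.2 fun j => gram_deriv hStd hS hf i j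
  have A8 : ∀ᵐ x ∂m, ∀ i, ACto (fun t => ⟪Gr (e i) (Y t x), vel Gr p s₀ C₀ Y t x⟫_ℝ)
      ⟪Gr (e i) x, vel Gr p s₀ C₀ Y 1 x⟫_ℝ
      fun t => ⟪HO (e i) (Y t x) (vel Gr p s₀ C₀ Y t x), vel Gr p s₀ C₀ Y t x⟫_ℝ :=
    ae_all_iff.2 fun i => hf.ac2 _ (hS.testI i)
  -- the bound `Λ`
  have A9 : ∀ᵐ x ∂m, ∀ n : ℕ, ∫⁻ t in Ioo (1 / ((n : ℝ) + 2)) 1,
      ENNReal.ofReal (Λ t (Y t x) ^ 2) < ∞ := by
    refine ae_all_iff.2 fun n => ?_
    have hs : 1 / ((n : ℝ) + 2) ∈ Ioo (0 : ℝ) 1 := by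
      constructor
      · positivity
      · rw [div_lt_one (by positivity)]; linarith [(Nat.cast_nonneg n : (0 : ℝ) ≤ n)]
    refine ae_lt_top' ?_ (hFH.lsq _ hs).ne
    have h3 : Measurable fun q : M × ℝ => ENNReal.ofReal (Λ q.2 (Y q.2 q.1) ^ 2) :=
      ((hFH.lmeas.comp (measurable_snd.prodMk hn.meas_swap)).pow_const 2).ennreal_ofReal
    exact (h3.lintegral_prod_right'
      (ν := volume.restrict (Ioo (1 / ((n : ℝ) + 2)) 1))).aemeasurable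
  have A10 : ∀ᵐ x ∂m, ∀ᵐ t ∂(volume.restrict (Ioo (0 : ℝ) 1)), rdir Gr p s₀ C₀ (Y t x) ∈
      (Submodule.span ℝ (range fun j => Gr (e j) (Y t x))).topologicalClosure :=
    hn.ae' (Q := fun y => rdir Gr p s₀ C₀ y ∈
      (Submodule.span ℝ (range fun j => Gr (e j) y)).topologicalClosure)
      (gspan hC.toIsDir hS (dtr_mem_W hStd p _))
  have A11 : ∀ᵐ x ∂m, ∀ᵐ t ∂(volume.restrict (Ioo (0 : ℝ) 1)), ∀ i, ∀ w : E,
      HO (e i) (Y t x) w ∈
      (Submodule.span ℝ (range fun j => Gr (e j) (Y t x))).topologicalClosure := by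
    refine hn.ae' (Q := fun y => ∀ i, ∀ w : E, HO (e i) y w ∈
      (Submodule.span ℝ (range fun j => Gr (e j) y)).topologicalClosure) (ae_all_iff.2 fun i => ?_)
    exact hS.hess.range e hT hS.denseW _ (hT i)
  filter_upwards [A1, A2, A3, A4, A5, A6, A7, A8, A9, A10, A11, hFH.bound, hFH.symm, hFH.span,
    hFH.ricc, hrank] with x a1 a2 a3 a4 a5 a6 a7 a8 a9 a10 a11 b1 b2 b3 b4 b5
  have hsp : 0 ≤ spd p s₀ C₀ x := spd_nonneg hf.hs₀ x
  have hmi : Measurable fun t : ℝ => (t, Y t x) := measurable_id.prodMk (hn.meas_x x)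
  refine hE45 κ (spd p s₀ C₀ x) (fun i t => Gr (e i) (Y t x))
    (fun i t => HO (e i) (Y t x) (vel Gr p s₀ C₀ Y t x)) (fun i t => Hh i t (Y t x))
    (fun t => vel Gr p s₀ C₀ Y t x) (fun t => Λ t (Y t x)) (fun i j t => Gt i j (Y t x)) ?_
  refine
    { l_nonneg := hsp
      l_small := ?_
      mg := ?_
      ma := ?_
      mb := ?_
      mv := ?_
      mΛ := ?_
      vnorm := a3
      gram := a4
      gram_ac := ?_
      gram_int := ?_
      p_ac := ?_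
      a_sq := ?_
      Λ_sq := ?_
      v_span := ?_
      a_span := ?_
      b_span := b3
      symm := b2
      bound := b1
      rank := b5
      ricc := b4 }
  · exact lt_of_le_of_lt (mul_le_mul_of_nonneg_left (spd_le hf.hs₀ hf.hC₀ x) (Real.sqrt_nonneg _)) hκ
  · intro i
    exact ((hS.gmeas _ (hW i)).comp_measurable (hn.meas_x x)).aestronglyMeasurable
  · intro i
    have h1 := (a1 i).mono_measure (Measure.restrict_mono (show Ioo (0 : ℝ) 1 ⊆ Ioc 0 1 from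
      Ioo_subset_Ioc_self) le_rfl)
    have h2 := h1.const_smul (spd p s₀ C₀ x)
    refine h2.congr (Eventually.of_forall fun t => ?_)
    show spd p s₀ C₀ x • HO (e i) (Y t x) (rdir Gr p s₀ C₀ (Y t x))
      = HO (e i) (Y t x) (vel Gr p s₀ C₀ Y t x)
    unfold vel
    rw [map_smul]
  · intro i
    exact ((hFH.hmeas i).comp_measurable hmi).aestronglyMeasurable
  · have h1 := ((rdir_sm (p := p) (s₀ := s₀) (C₀ := C₀) hStd hS).comp_measurable (hn.meas_x x))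
    exact (h1.const_smul (spd p s₀ C₀ x)).aestronglyMeasurable
  · exact (hFH.lmeas.comp hmi).aestronglyMeasurable
  · -- gram_ac
    intro i j s hs t ht
    show Gt i j (Y t x) - Gt i j (Y s x) = _
    rw [a5 i j t ⟨ht.1, ht.2.le⟩, a5 i j s ⟨hs.1, hs.2.le⟩]
    have h1 := intervalIntegral.integral_add_adjacent_intervals (ii_sub (a6 i j) hs ht) (a6 i j t ht)
    have h2 : ∫ r in s..t, ⟪Gr ((sob m).Γ (e i) (e j)) (Y r x), vel Gr p s₀ C₀ Y r x⟫_ℝ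
        = ∫ r in s..t, (⟪HO (e i) (Y r x) (vel Gr p s₀ C₀ Y r x), Gr (e j) (Y r x)⟫_ℝ
          + ⟪Gr (e i) (Y r x), HO (e j) (Y r x) (vel Gr p s₀ C₀ Y r x)⟫_ℝ) := by
      refine intervalIntegral.integral_congr_ae_restrict ?_
      exact ii_congr (a7 i j) hs ht
    rw [← h2]
    linarith
  · -- gram_int
    intro i j s hs t ht
    exact (ii_sub (a6 i j) hs ht).congr_ae (ii_congr (a7 i j) hs ht)
  · -- p_ac
    intro i
    refine ⟨fun t => ⟪Gr (e i) x, vel Gr p s₀ C₀ Y 1 x⟫_ℝ - ∫ r in t..1,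
      ⟪HO (e i) (Y r x) (vel Gr p s₀ C₀ Y r x), vel Gr p s₀ C₀ Y r x⟫_ℝ, ?_, ?_⟩
    · filter_upwards [(a8 i).2] with t ht
      exact ht.symm
    · intro s hs t ht
      have h1 := intervalIntegral.integral_add_adjacent_intervals
        (ii_sub (a8 i).1 hs ht) ((a8 i).1 t ht)
      show _ - _ - (_ - _) = _
      linarith
  · -- a_sq
    intro i s hs t ht
    refine ((ii_sub (a2 i) hs ht).const_mul (spd p s₀ C₀ x ^ 2)).congr_ae
      (Eventually.of_forall fun r => ?_)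
    show spd p s₀ C₀ x ^ 2 * ‖HO (e i) (Y r x) (rdir Gr p s₀ C₀ (Y r x))‖ ^ 2
      = ‖HO (e i) (Y r x) (vel Gr p s₀ C₀ Y r x)‖ ^ 2
    unfold vel
    rw [map_smul, norm_smul, mul_pow, Real.norm_eq_abs, sq_abs]
  · -- Λ_sq
    intro s hs t ht
    refine ii_sub (f := fun r => Λ r (Y r x) ^ 2) (fun s hs => ?_) hs ht
    rw [intervalIntegrable_iff_integrableOn_Ioo_of_le hs.2.le]
    obtain ⟨n, hn'⟩ := exists_nat_one_div_lt hs.1
    have h1 : 1 / ((n : ℝ) + 2) ≤ s := by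
      refine le_trans ?_ hn'.le
      exact one_div_le_one_div_of_le (by positivity) (by linarith)
    have h2 : Measurable fun r => Λ r (Y r x) ^ 2 := (hFH.lmeas.comp hmi).pow_const 2
    refine ⟨h2.aestronglyMeasurable, ?_⟩
    have h3 : ∫⁻ t in Ioo s 1, ‖Λ t (Y t x) ^ 2‖ₑ
        = ∫⁻ t in Ioo s 1, ENNReal.ofReal (Λ t (Y t x) ^ 2) := by
      refine lintegral_congr fun t => ?_
      rw [Real.enorm_eq_ofReal (sq_nonneg _)]
    show ∫⁻ t in Ioo s 1, ‖Λ t (Y t x) ^ 2‖ₑ < ∞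
    rw [h3]
    exact lt_of_le_of_lt (lintegral_mono_set (Ioo_subset_Ioo_left h1)) (a9 n)
  · filter_upwards [a10] with t ht
    exact Submodule.smul_mem _ _ ht
  · filter_upwards [a11] with t ht i
    exact ht i _

end Vale.Agent.P233
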