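import Vale.Agent.P233.H254.AsmE
import Vale.Agent.P233.H254.E45F
import Vale.Agent.P233.H561.E2
import Vale.Agent.P233.H450.E3
import Vale.Agent.P233.H768.BlkE45
import Vale.Agent.P233.H992.E6a
import Vale.Agent.P233.H761.HessD4

/-! P233: part E is closed: `Blk_E`. -/

universe u

namespace Vale.Agent.P233

theorem blk_E : Blk_E.{u} :=
  asm_E H561.blk_E1 H561.blk_E2 H450.blk_E3 H768.blk_E45 blk_E45F H992.blk_E6a blk_E6

end Vale.Agent.P233
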