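import Vale.Agent.P233.Gig.IfE
import Vale.Agent.P233.H183.Unit

/-! P233, part E: API of nonsingular flows, measurability and integrability along curves. -/

set_option linter.all false

open MeasureTheory Filter Topology Set
open scoped ENNReal NNReal InnerProductSpace

universe u v

namespace Vale.Agent.P233.FA

/-- nonsingular flow: jointly measurable and of bounded compression on `[s,1]` -/
structure NS {M : Type u} [MeasurableSpace M] (m : Measure M) (Y : ℝ → M → M) : Prop where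
  meas : Measurable fun q : ℝ × M => Y q.1 q.2
  comp : ∀ s ∈ Ioc (0 : ℝ) 1, ∃ A : ℝ≥0, ∀ t ∈ Icc s 1, m.map (Y t) ≤ A • m

namespace NS

variable {M : Type u} [MeasurableSpace M] {m : Measure M} {Y : ℝ → M → M}
variable {E : Type v} [NormedAddCommGroup E]

theorem meas_t (h : NS m Y) (t : ℝ) : Measurable (Y t) :=
  h.meas.comp (measurable_const.prodMk measurable_id)

theorem meas_x (h : NS m Y) (x : M) : Measurable fun t => Y t x :=
  h.meas.comp (measurable_id.prodMk measurable_const)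

theorem meas_swap (h : NS m Y) : Measurable fun q : M × ℝ => Y q.2 q.1 :=
  h.meas.comp measurable_swap

theorem lint_t (h : NS m Y) {A : ℝ≥0} {t : ℝ} (hA : m.map (Y t) ≤ A • m) {F : M → ℝ≥0∞}
    (hF : Measurable F) : ∫⁻ x, F (Y t x) ∂m ≤ A * ∫⁻ x, F x ∂m := by
  rw [← lintegral_map hF (h.meas_t t)]
  calc ∫⁻ x, F x ∂(m.map (Y t)) ≤ ∫⁻ x, F x ∂((A : ℝ≥0) • m) := lintegral_mono' hA le_rfl
    _ = A * ∫⁻ x, F x ∂m := by rw [lintegral_smul_measure]; rfl

theorem ae_t (h : NS m Y) {Q : M → Prop} (hQ : ∀ᵐ y ∂m, Q y) {t : ℝ} (ht : t ∈ Ioc (0 : ℝ) 1) :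
    ∀ᵐ x ∂m, Q (Y t x) := by
  obtain ⟨A, hA⟩ := h.comp t ht
  have hA := hA t ⟨le_rfl, ht.2⟩
  have h1 : ∀ᵐ y ∂(m.map (Y t)), Q y := by
    refine (Measure.absolutelyContinuous_of_le hA).ae_le ?_
    exact (Measure.smul_absolutelyContinuous).ae_le hQ
  exact ae_of_ae_map (h.meas_t t).aemeasurable h1

theorem ae (h : NS m Y) [SFinite m] {Q : M → Prop} (hQ : ∀ᵐ y ∂m, Q y) :
    ∀ᵐ x ∂m, ∀ᵐ t ∂(volume.restrict (Ioc (0 : ℝ) 1)), Q (Y t x) := by
  obtain ⟨N, hN, hNm, hN0⟩ := exists_measurable_superset_of_null (ae_iff.1 hQ)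
  have h0 : ∀ᵐ y ∂m, y ∉ N := by
    rw [ae_iff]; simpa using hN0
  have h1 : ∀ᵐ x ∂m, ∀ᵐ t ∂(volume.restrict (Ioc (0 : ℝ) 1)), Y t x ∉ N := by
    rw [Measure.ae_ae_comm (p := fun x t => Y t x ∉ N) (h.meas_swap hNm.compl)]
    filter_upwards [ae_restrict_mem measurableSet_Ioc] with t ht
    exact h.ae_t h0 ht
  filter_upwards [h1] with x hx
  filter_upwards [hx] with t ht
  by_contra hc
  exact ht (hN hc)

theorem ae' (h : NS m Y) [SFinite m] {Q : M → Prop} (hQ : ∀ᵐ y ∂m, Q y) :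
    ∀ᵐ x ∂m, ∀ᵐ t ∂(volume.restrict (Ioo (0 : ℝ) 1)), Q (Y t x) := by
  filter_upwards [h.ae hQ] with x hx
  exact ae_restrict_of_ae_restrict_of_subset Ioo_subset_Ioc_self hx

/-- along almost every curve, `t ↦ f (Y t x)` is a.e. strongly measurable -/
theorem aesm (h : NS m Y) [SFinite m] {f : M → E} (hf : AEStronglyMeasurable f m) :
    ∀ᵐ x ∂m, AEStronglyMeasurable (fun t => f (Y t x)) (volume.restrict (Ioc (0 : ℝ) 1)) := by
  filter_upwards [h.ae hf.ae_eq_mk] with x hx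
  refine AEStronglyMeasurable.congr ?_ (Filter.EventuallyEq.symm (f := fun t => f (Y t x))
    (g := fun t => hf.mk f (Y t x)) hx)
  exact (hf.stronglyMeasurable_mk.comp_measurable (h.meas_x x)).aestronglyMeasurable

theorem lint (h : NS m Y) [SFinite m] {s : ℝ} (hs : s ∈ Ioc (0 : ℝ) 1) {F : M → ℝ≥0∞}
    (hF : Measurable F) : ∃ A : ℝ≥0,
    ∫⁻ x, (∫⁻ t in Ioc s 1, F (Y t x)) ∂m ≤ A * ∫⁻ x, F x ∂m := by
  obtain ⟨A, hA⟩ := h.comp s hs
  refine ⟨A, ?_⟩
  rw [lintegral_lintegral_swap (f := fun x t => F (Y t x)) (hF.comp h.meas_swap).aemeasurable]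
  calc ∫⁻ t in Ioc s 1, ∫⁻ x, F (Y t x) ∂m
      ≤ ∫⁻ t in Ioc s 1, (A * ∫⁻ x, F x ∂m) := by
        refine setLIntegral_mono' measurableSet_Ioc fun t ht => ?_
        exact h.lint_t (hA t ⟨ht.1.le, ht.2⟩) hF
    _ = (A * ∫⁻ x, F x ∂m) * ENNReal.ofReal (1 - s) := by
        rw [setLIntegral_const, Real.volume_Ioc]
    _ ≤ (A * ∫⁻ x, F x ∂m) * 1 := by
        gcongr
        rw [← ENNReal.ofReal_one]
        exact ENNReal.ofReal_le_ofReal (by linarith [hs.1])
    _ = _ := mul_one _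

/-- the key integrability statement -/
theorem fin (h : NS m Y) [SFinite m] {F : M → ℝ≥0∞} (hF : AEMeasurable F m)
    (hF1 : ∫⁻ x, F x ∂m < ∞) :
    ∀ᵐ x ∂m, ∀ s ∈ Ioo (0 : ℝ) 1, ∫⁻ t in Ioc s 1, F (Y t x) < ∞ := by
  have h1 : ∀ n : ℕ, ∀ᵐ x ∂m, ∫⁻ t in Ioc (1 / ((n : ℝ) + 1)) 1, hF.mk F (Y t x) < ∞ := by
    intro n
    have hn : (1 / ((n : ℝ) + 1)) ∈ Ioc (0 : ℝ) 1 := by
      constructor
      · positivity
      · rw [div_le_one (by positivity)]; linarith [(Nat.cast_nonneg n : (0 : ℝ) ≤ n)]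
    obtain ⟨A, hA⟩ := h.lint hn hF.measurable_mk
    have h2 : ∫⁻ x, (∫⁻ t in Ioc (1 / ((n : ℝ) + 1)) 1, hF.mk F (Y t x)) ∂m < ∞ := by
      refine lt_of_le_of_lt hA (ENNReal.mul_lt_top ENNReal.coe_lt_top ?_)
      rwa [← lintegral_congr_ae hF.ae_eq_mk]
    refine ae_lt_top' ?_ h2.ne
    have h3 : Measurable fun q : M × ℝ => hF.mk F (Y q.2 q.1) :=
      hF.measurable_mk.comp h.meas_swap
    exact (h3.lintegral_prod_right' (ν := volume.restrict (Ioc (1 / ((n : ℝ) + 1)) 1))).aemeasurable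
  filter_upwards [ae_all_iff.2 h1, h.ae hF.ae_eq_mk] with x hx hx' s hs
  obtain ⟨n, hn⟩ := exists_nat_one_div_lt hs.1
  have h2 : ∀ᵐ t ∂(volume.restrict (Ioc s 1)), F (Y t x) = hF.mk F (Y t x) :=
    ae_restrict_of_ae_restrict_of_subset (Ioc_subset_Ioc_left hs.1.le) hx'
  rw [lintegral_congr_ae h2]
  exact lt_of_le_of_lt (lintegral_mono_set (Ioc_subset_Ioc_left hn.le)) (hx n)

/-- `f ∈ L¹` is integrable along almost every curve on `[s,1]` -/
theorem intervalIntegrable (h : NS m Y) [SFinite m] [NormedSpace ℝ E] {f : M → E}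
    (hf : MemLp f 1 m) : ∀ᵐ x ∂m, ∀ s ∈ Ioo (0 : ℝ) 1,
    IntervalIntegrable (fun t => f (Y t x)) volume s 1 := by
  have hF : AEMeasurable (fun x => ‖f x‖ₑ) m := hf.1.enorm
  have hF1 : ∫⁻ x, ‖f x‖ₑ ∂m < ∞ := (memLp_one_iff_integrable.1 hf).2
  filter_upwards [h.aesm hf.1, h.fin hF hF1] with x h1 h2 s hs
  rw [intervalIntegrable_iff_integrableOn_Ioc_of_le hs.2.le]
  exact ⟨h1.mono_measure (Measure.restrict_mono (Ioc_subset_Ioc_left hs.1.le) le_rfl), h2 s hs⟩

/-- `f ∈ L²` is square integrable along almost every curve on `[s,1]` -/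
theorem sq_intervalIntegrable (h : NS m Y) [SFinite m] {f : M → E}
    (hf : MemLp f 2 m) : ∀ᵐ x ∂m, ∀ s ∈ Ioo (0 : ℝ) 1,
    IntervalIntegrable (fun t => ‖f (Y t x)‖ ^ 2) volume s 1 := by
  have h1 : MemLp (fun x => ‖f x‖ ^ 2) 1 m := by
    rw [memLp_one_iff_integrable]
    exact (memLp_two_iff_integrable_sq_norm hf.1).1 hf
  exact h.intervalIntegrable h1

end NS

section

variable {M : Type u} [MetricSpace M] [MeasurableSpace M] {m : Measure M}
variable {E : Type v} [NormedAddCommGroup E] [InnerProductSpace ℝ E]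
variable {Gr : (M →ₘ[m] ℝ) → M → E} {HO : (M →ₘ[m] ℝ) → M → E →L[ℝ] E} {e : ℕ → M →ₘ[m] ℝ}
variable {p : M} {s₀ C₀ : ℝ} {Y : ℝ → M → M}

theorem ns (h : Flow Gr HO p s₀ C₀ Y) : NS m Y := ⟨h.meas, h.comp⟩

theorem spd_nonneg (h : 0 < s₀) (x : M) : 0 ≤ spd p s₀ C₀ x := by
  unfold spd
  split_ifs
  · exact div_nonneg dist_nonneg (by linarith)
  · exact le_rfl

theorem spd_le (h : 0 < s₀) (hC : 0 < C₀) (x : M) : spd p s₀ C₀ x ≤ √(2 * C₀) := by
  unfold spd
  split_ifs with h1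
  · refine Real.le_sqrt_of_sq_le ?_
    rw [div_pow, div_le_iff₀ (by positivity)]
    nlinarith [mul_pos hC h, mul_pos (mul_pos hC h) h]
  · positivity

theorem spd_measurable [OpensMeasurableSpace M] : Measurable fun x : M => spd p s₀ C₀ x := by
  unfold spd
  have h1 : Measurable fun x : M => dist p x := (continuous_const.dist continuous_id).measurable
  exact Measurable.ite (measurableSet_lt (h1.pow_const 2) measurable_const)
    (h1.div_const _) measurable_const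

end

/-! ### standing hypotheses -/

section std

variable {M : Type u} [MetricSpace M] [MeasurableSpace M] [BorelSpace M]
  [SecondCountableTopology M] {m : Measure M} {K N : ℝ}

theorem gam (h : Std m K N) : IsGamma (sob m) :=
  isGamma_sob h.hfin h.rcd.quadratic h.rcd.sobolev_to_lipschitz

theorem bei (h : Std m K N) : (sob m).BEi K := (gam h).bei h.hN h.rcd.bochner

theorem sf (h : Std m K N) : SigmaFinite m := sigmaFinite_of_ball h.hfin

omit [SecondCountableTopology M] in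
theorem dtr_lipschitz (p : M) (R : ℝ) : LipschitzWith 1 (dtr p R) := by
  unfold dtr
  have h1 : LipschitzWith 1 fun x : M => dist p x := LipschitzWith.dist_right p
  have h2 : LipschitzWith 1 fun x : M => min (dist p x) R := h1.min_const R
  intro x y
  have := h2 x y
  simpa [edist_sub_right] using this

theorem dtr_mem_A (h : Std m K N) (p : M) (R : ℝ) : cl m (dtr p R) ∈ (sob m).A :=
  H183.cl_mem_A h.hfin (dtr_lipschitz p R) (x₀ := p) (R := R) fun x hx => by
    unfold dtr; rw [min_eq_right hx, sub_self]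

theorem dtr_mem_W (h : Std m K N) (p : M) (R : ℝ) : cl m (dtr p R) ∈ (sob m).W :=
  (dtr_mem_A h p R).1

theorem dtr_Γ_le (h : Std m K N) (p : M) (R : ℝ) :
    ∀ᵐ x ∂m, (sob m).Γ (cl m (dtr p R)) (cl m (dtr p R)) x ≤ 1 := by
  have := H183.Γ_cl_le h.hfin (dtr_lipschitz p R) (x₀ := p) (R := R) fun x hx => by
    unfold dtr; rw [min_eq_right hx, sub_self]
  simpa using this

variable {E : Type v} [NormedAddCommGroup E] [InnerProductSpace ℝ E]
variable {Gr : (M →ₘ[m] ℝ) → M → E} {HO : (M →ₘ[m] ℝ) → M → E →L[ℝ] E} {e : ℕ → M →ₘ[m] ℝ}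

theorem rdir_norm_le (h : Std m K N) (hG : IsGrad (sob m) Gr) (p : M) (s₀ C₀ : ℝ) :
    ∀ᵐ y ∂m, ‖rdir Gr p s₀ C₀ y‖ ≤ 1 := by
  have hW := dtr_mem_W h p √(2 * C₀ * (1 + s₀))
  filter_upwards [hG.norm_eq hW, dtr_Γ_le h p √(2 * C₀ * (1 + s₀))] with y h1 h2
  unfold rdir
  rw [h1]
  calc Real.sqrt _ ≤ Real.sqrt 1 := Real.sqrt_le_sqrt h2
    _ = 1 := Real.sqrt_one

end std

/-! ### static data -/

section stat

variable {M : Type u} [MeasurableSpace M] {m : Measure M}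
variable {E : Type v} [NormedAddCommGroup E] [InnerProductSpace ℝ E]
variable {C : Calc m} {Gr : (M →ₘ[m] ℝ) → M → E} {HO : (M →ₘ[m] ℝ) → M → E →L[ℝ] E}

/-- an operator field that is measurable on vectors is measurable on measurable vector fields -/
theorem aesm_apply {H : M → E →L[ℝ] E} (hH : ∀ w : E, AEStronglyMeasurable (fun x => H x w) m)
    {V : M → E} (hV : AEStronglyMeasurable V m) : AEStronglyMeasurable (fun x => H x (V x)) m := by
  have h1 : ∀ n, AEStronglyMeasurable (fun x => H x (hV.stronglyMeasurable_mk.approx n x)) m := by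
    intro n
    set s := hV.stronglyMeasurable_mk.approx n with hs
    have h2 : (fun x => H x (s x))
        = ∑ w ∈ s.range, (s ⁻¹' {w}).indicator (fun x => H x w) := by
      funext x
      rw [Finset.sum_apply, Finset.sum_eq_single (s x)]
      · rw [indicator_of_mem (show x ∈ s ⁻¹' {s x} from rfl)]
      · intro w _ hw
        exact indicator_of_notMem (fun h => hw (by
          have : s x = w := h
          exact this.symm)) _
      · intro h
        exact absurd (SimpleFunc.mem_range_self s x) h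
    rw [h2]
    refine Finset.aestronglyMeasurable_sum _ fun w _ => ?_
    exact (hH w).indicator (s.measurableSet_preimage {w})
  refine aestronglyMeasurable_of_tendsto_ae atTop h1 ?_
  filter_upwards [hV.ae_eq_mk] with x hx
  rw [hx]
  exact (H x).continuous.tendsto _ |>.comp (hV.stronglyMeasurable_mk.tendsto_approx x)

variable {e : ℕ → M →ₘ[m] ℝ}

theorem gspan (hC : IsDir C) (h : Stat C Gr HO e) {f : M →ₘ[m] ℝ} (hf : f ∈ C.W) :
    ∀ᵐ x ∂m, Gr f x ∈ (Submodule.span ℝ (range fun j => Gr (e j) x)).topologicalClosure := by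
  have h1 : ∀ n : ℕ, ∃ i, C.nrm2 (f - e i) < 1 / ((n : ℝ) + 1) := fun n =>
    h.denseW f hf _ (by positivity)
  choose i hi using h1
  have heW : ∀ j, e j ∈ C.W := fun j => (h.testI j).1.2.choose_spec.1.1
  have hd : ∀ n, f - e (i n) ∈ C.W := fun n => hC.sub_mem hf (heW _)
  have h2 : Tendsto (fun n => I (C.Γ (f - e (i n)) (f - e (i n)))) atTop (𝓝 0) := by
    refine squeeze_zero (fun n => hC.E_nonneg (hd n))
      (fun n => (hC.E_le_nrm2 _).trans (hi n).le) ?_
    exact tendsto_one_div_add_atTop_nhds_zero_nat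
  obtain ⟨ns, -, hns⟩ := exists_subseq_of_I (fun n => hC.mem1 _ (hd n))
    (fun n => hC.nonneg _ (hd n)) h2
  have h3 : ∀ᵐ x ∂m, ∀ n, Gr (f - e (i n)) x = Gr f x - Gr (e (i n)) x :=
    ae_all_iff.2 fun n => h.grad.sub hC hf (heW _)
  have h4 : ∀ᵐ x ∂m, ∀ n, ‖Gr (f - e (i n)) x‖ ^ 2 = C.Γ (f - e (i n)) (f - e (i n)) x :=
    ae_all_iff.2 fun n => h.grad.norm_sq (hd n)
  filter_upwards [hns, h3, h4] with x a1 a3 a4
  have h5 : Tendsto (fun n => ‖Gr (e (i (ns n))) x - Gr f x‖) atTop (𝓝 0) := by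
    have h6 : Tendsto (fun n => ‖Gr (e (i (ns n))) x - Gr f x‖ ^ 2) atTop (𝓝 0) := by
      refine a1.congr fun n => ?_
      rw [← a4, a3, norm_sub_rev]
    have h7 := h6.sqrt
    rw [Real.sqrt_zero] at h7
    exact h7.congr fun n => Real.sqrt_sq (norm_nonneg _)
  have h8 : Tendsto (fun n => Gr (e (i (ns n))) x) atTop (𝓝 (Gr f x)) :=
    tendsto_iff_norm_sub_tendsto_zero.2 h5
  exact mem_closure_of_tendsto h8 (Eventually.of_forall fun n =>
    Submodule.subset_span ⟨i (ns n), rfl⟩)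

end stat

end Vale.Agent.P233.FA
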