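import Vale.Agent.P233.H254.S3

/-! P233, RCDA, block InS: the input of part S from the blocks H1, H2, H3b, H4, S1. -/

set_option linter.all false

open MeasureTheory Filter Topology Set
open scoped ENNReal NNReal MeasureTheory

universe u

namespace Vale.Agent.P233.RA

namespace Glue

variable {M : Type u} [MetricSpace M] [CompleteSpace M] [SecondCountableTopology M]
  [MeasurableSpace M] [BorelSpace M] {m : Measure M} {n : ℕ} {K θ δ : ℝ}

theorem sg0 (hN : NSp m n K θ) (h1 : ∀ t : ℝ, 0 ≤ t → ∀ f : M →ₘ[m] ℝ, MemLp f 2 m →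
    MemLp f 1 m → I (Q m t f) = I f) : SG0 (Q m) where
  mem t ht f hf := hN.isDir.P_mem2 _ hf
  zero f hf := by
    unfold Q
    rw [zero_div]
    exact hN.isDir.P_zero_time hf
  semi s t hs ht f hf := by
    unfold Q
    rw [hN.isDir.P_P (by positivity) (by positivity) hf]
    congr 1
    ring
  add t ht f g hf hg := hN.isDir.P_add _ hf hg
  smul t ht c f hf := hN.isDir.P_smul _ c hf
  symm t ht f g hf hg := hN.isDir.P_symm _ hf hg
  contr t ht f hf := hN.isDir.P_sq_le _ hf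
  nonneg t ht f hf h0 := hN.isDir.P_nonneg (by positivity) hf h0
  le t ht f hf c hc h0 := hN.isDir.P_le (by positivity) hf hc h0
  L1 t ht f hf hf1 := (hN.isDir.P_L1 (by positivity) hf hf1).1
  mass t ht f hf hf1 := h1 t ht f hf hf1
  cont f hf s hs := by
    have h := hN.isDir.P_cont hf (s / 2)
    have h2 : Tendsto (fun t : ℝ => t / 2) (𝓝[Ici 0] s) (𝓝 (s / 2)) :=
      ((continuous_id.div_const 2).tendsto s).mono_left nhdsWithin_le_nhds
    exact h.comp h2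

theorem L1c (hN : NSp m n K θ) {t : ℝ} (ht : 0 ≤ t) {f : M →ₘ[m] ℝ} (hf : MemLp f 2 m)
    (hf1 : MemLp f 1 m) : MemLp (Q m t f) 1 m ∧ ∫ x, |Q m t f x| ∂m ≤ ∫ x, |f x| ∂m :=
  hN.isDir.P_L1 (by positivity) hf hf1

section pairing

variable {φ : M → ℝ} {B : ℝ}

theorem int_pair (hφ : Measurable φ) (hB : ∀ x, |φ x| ≤ B) {G : M →ₘ[m] ℝ} (hG : MemLp G 1 m) :
    Integrable (fun x => φ x * G x) m :=
  (int_of_mem hG).bdd_mul hφ.aestronglyMeasurable (Eventually.of_forall fun x => by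
    rw [Real.norm_eq_abs]; exact hB x)

theorem pair_le (hφ : Measurable φ) (hB : ∀ x, |φ x| ≤ B) {G : M →ₘ[m] ℝ} (hG : MemLp G 1 m) :
    |∫ x, φ x * G x ∂m| ≤ B * ∫ x, |G x| ∂m := by
  rw [← integral_const_mul]
  refine abs_integral_le_integral_abs.trans (integral_mono (int_pair hφ hB hG).abs
    ((int_of_mem hG).abs.const_mul _) fun x => ?_)
  dsimp only
  rw [abs_mul]
  exact mul_le_mul_of_nonneg_right (hB x) (abs_nonneg _)

theorem pair_sub (hφ : Measurable φ) (hB : ∀ x, |φ x| ≤ B) {G H : M →ₘ[m] ℝ} (hG : MemLp G 1 m)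
    (hH : MemLp H 1 m) :
    ∫ x, φ x * (G - H) x ∂m = ∫ x, φ x * G x ∂m - ∫ x, φ x * H x ∂m := by
  rw [← integral_sub (int_pair hφ hB hG) (int_pair hφ hB hH)]
  refine integral_congr_ae ?_
  filter_upwards [sub_ae G H] with x hx
  rw [hx]
  ring

theorem pair_smul (c : ℝ) (G : M →ₘ[m] ℝ) :
    ∫ x, φ x * (c • G) x ∂m = c * ∫ x, φ x * G x ∂m := by
  rw [← integral_const_mul]
  refine integral_congr_ae ?_
  filter_upwards [smul_ae G c] with x hx
  rw [hx]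
  ring

end pairing

theorem cd2 (hN : NSp m n K θ) {ρ ρ' : M →ₘ[m] ℝ} (h : CD m ρ ρ') : MemLp ρ 2 m :=
  hN.isDir.memLp _ h.lap.1

/-- `Q_t` commutes with the difference quotients -/
theorem deriv_of (hN : NSp m n K θ) {ρ ρ' : M →ₘ[m] ℝ} (h : CD m ρ ρ')
    (hR : Tendsto (fun t => ∫ x, |(t⁻¹ • (Q m t ρ - ρ) - (2 : ℝ)⁻¹ • ρ') x| ∂m) (𝓝[>] 0) (𝓝 0))
    (hS : Tendsto (fun t => ∫ x, |(Q m t ρ' - ρ') x| ∂m) (𝓝[>] 0) (𝓝 0))
    (h1 : ∀ t : ℝ, 0 ≤ t → ∀ f : M →ₘ[m] ℝ, MemLp f 2 m → MemLp f 1 m → I (Q m t f) = I f)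
    {φ : M → ℝ} (hφ : Measurable φ) {B : ℝ} (hB : ∀ x, |φ x| ≤ B) {t : ℝ} (ht : 0 ≤ t) :
    HasDerivWithinAt (fun s => ∫ x, φ x * Q m s ρ x ∂m) (2⁻¹ * ∫ x, φ x * Q m t ρ' x ∂m)
      (Ici 0) t := by
  have sg := sg0 hN h1
  have m2 : MemLp ρ 2 m := cd2 hN h
  have m2' : MemLp ρ' 2 m := h.lap.2.1
  have L : ∀ s, 0 ≤ s → MemLp (Q m s ρ) 1 m := fun s hs => sg.L1 s hs ρ m2 h.m1
  have L' : ∀ s, 0 ≤ s → MemLp (Q m s ρ') 1 m := fun s hs => sg.L1 s hs ρ' m2' h.m1'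
  have L2 : ∀ s, 0 ≤ s → MemLp (Q m s ρ) 2 m := fun s hs => sg.mem s hs ρ m2
  have L2' : ∀ s, 0 ≤ s → MemLp (Q m s ρ') 2 m := fun s hs => sg.mem s hs ρ' m2'
  have hB0 : ∀ c : ℝ, 0 ≤ c → 0 ≤ B * c ∨ IsEmpty M := by
    intro c hc
    rcases isEmpty_or_nonempty M with hM | ⟨⟨x⟩⟩
    · exact Or.inr hM
    · exact Or.inl (mul_nonneg ((abs_nonneg _).trans (hB x)) hc)
  have sub : ∀ s, 0 ≤ s → ∀ f g : M →ₘ[m] ℝ, MemLp f 2 m → MemLp g 2 m →
      Q m s (f - g) = Q m s f - Q m s g := fun s hs f g hf hg => hN.isDir.P_sub _ hf hg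
  -- the defect
  set R : ℝ → ℝ := fun t => ∫ x, |(t⁻¹ • (Q m t ρ - ρ) - (2 : ℝ)⁻¹ • ρ') x| ∂m with hRd
  set S : ℝ → ℝ := fun t => ∫ x, |(Q m t ρ' - ρ') x| ∂m with hSd
  set D : ℝ → M →ₘ[m] ℝ := fun h => Q m h ρ - ρ - (h / 2) • ρ' with hD
  have hD1 : ∀ h, 0 < h → MemLp (D h) 1 m := fun r hr =>
    mem_sub (mem_sub (L r hr.le) h.m1) (mem_smul _ h.m1')
  have hD2 : ∀ h, 0 < h → MemLp (D h) 2 m := fun r hr =>
    mem_sub (mem_sub (L2 r hr.le) m2) (mem_smul _ m2')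
  have hDR : ∀ h, 0 < h → ∫ x, |D h x| ∂m = h * R h := by
    intro r hr
    rw [hRd, ← integral_const_mul]
    refine integral_congr_ae ?_
    have e : D r = r • (r⁻¹ • (Q m r ρ - ρ) - (2 : ℝ)⁻¹ • ρ') := by
      rw [hD, smul_sub, smul_smul, mul_inv_cancel₀ hr.ne', one_smul, smul_smul]
      rfl
    rw [e]
    filter_upwards [smul_ae (r⁻¹ • (Q m r ρ - ρ) - (2 : ℝ)⁻¹ • ρ') r] with x hx
    rw [hx, abs_mul, abs_of_pos hr]
  have hQD : ∀ s h, 0 ≤ s → 0 < h →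
      |∫ x, φ x * Q m s (D h) x ∂m| ≤ B * (h * R h) := by
    intro s r hs hr
    have a := L1c hN hs (hD2 r hr) (hD1 r hr)
    have b := pair_le hφ hB a.1
    rcases isEmpty_or_nonempty M with hM | ⟨⟨x⟩⟩
    · have hm : m = 0 := Measure.eq_zero_of_isEmpty m
      simp [hRd, hm]
    · refine b.trans (mul_le_mul_of_nonneg_left ?_ ((abs_nonneg _).trans (hB x)))
      rw [← hDR r hr]
      exact a.2
  have key : ∀ s, 0 ≤ s → s ≠ t →
      |∫ x, φ x * Q m s ρ x ∂m - ∫ x, φ x * Q m t ρ x ∂m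
        - (s - t) * (2⁻¹ * ∫ x, φ x * Q m t ρ' x ∂m)|
        ≤ |s - t| * (B * (R |s - t| + S |s - t|)) := by
    intro s hs hst
    have hS0 : 0 ≤ S |s - t| := integral_nonneg fun x => abs_nonneg _
    have hR0 : 0 ≤ R |s - t| := integral_nonneg fun x => abs_nonneg _
    rcases isEmpty_or_nonempty M with hM | ⟨⟨x0⟩⟩
    · have hm : m = 0 := Measure.eq_zero_of_isEmpty m
      simp [hRd, hSd, hm]
    have hB1 : 0 ≤ B := (abs_nonneg _).trans (hB x0)
    rcases lt_or_gt_of_ne hst with hlt | hgt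
    · -- `s < t`
      set r : ℝ := t - s with hr
      have hr0 : 0 < r := sub_pos.2 hlt
      have er : |s - t| = r := by rw [abs_of_neg (sub_neg.2 hlt)]; ring
      rw [er] at hS0 hR0 ⊢
      have e1 : Q m t ρ = Q m s (Q m r ρ) := by
        rw [← sg.semi s r hs hr0.le ρ m2, hr]
        congr 1
        ring
      have e1' : Q m t ρ' = Q m s (Q m r ρ') := by
        rw [← sg.semi s r hs hr0.le ρ' m2', hr]
        congr 1
        ring
      have e2 : Q m s (D r) = Q m s (Q m r ρ) - Q m s ρ - (r / 2) • Q m s ρ' := by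
        rw [hD, sub s hs _ _ (mem_sub (L2 r hr0.le) m2) (mem_smul _ m2'),
          sub s hs _ _ (L2 r hr0.le) m2, sg.smul s hs _ _ m2']
      have e3 : ∫ x, φ x * Q m s (D r) x ∂m = ∫ x, φ x * Q m t ρ x ∂m
          - ∫ x, φ x * Q m s ρ x ∂m - (r / 2) * ∫ x, φ x * Q m s ρ' x ∂m := by
        rw [e2, pair_sub hφ hB (mem_sub (sg.L1 s hs _ (L2 r hr0.le) (L r hr0.le)) (L s hs))
          (mem_smul _ (L' s hs)), pair_sub hφ hB (sg.L1 s hs _ (L2 r hr0.le) (L r hr0.le)) (L s hs),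
          pair_smul, ← e1]
      have e4 : |∫ x, φ x * Q m t ρ' x ∂m - ∫ x, φ x * Q m s ρ' x ∂m| ≤ B * S r := by
        rw [← pair_sub hφ hB (L' t ht) (L' s hs), e1',
          ← sub s hs _ _ (L2' r hr0.le) m2']
        have a := L1c hN hs (mem_sub (L2' r hr0.le) m2') (mem_sub (L' r hr0.le) h.m1')
        exact (pair_le hφ hB a.1).trans (mul_le_mul_of_nonneg_left a.2 hB1)
      have e5 := hQD s r hs hr0
      rw [e3] at e5
      rw [abs_le] at e4 e5 ⊢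
      have : s - t = -r := by rw [hr]; ring
      rw [this]
      have e6 : (r / 2) * (B * S r) ≤ r * (B * S r) :=
        mul_le_mul_of_nonneg_right (by linarith) (mul_nonneg hB1 hS0)
      constructor <;> nlinarith [e4.1, e4.2, e5.1, e5.2, e6]
    · set r : ℝ := s - t with hr
      have hr0 : 0 < r := sub_pos.2 hgt
      rw [abs_of_pos hr0] at hS0 hR0 ⊢
      have e1 : Q m s ρ = Q m t (Q m r ρ) := by
        rw [← sg.semi t r ht hr0.le ρ m2, hr]
        congr 1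
        ring
      have e2 : Q m t (D r) = Q m t (Q m r ρ) - Q m t ρ - (r / 2) • Q m t ρ' := by
        rw [hD, sub t ht _ _ (mem_sub (L2 r hr0.le) m2) (mem_smul _ m2'),
          sub t ht _ _ (L2 r hr0.le) m2, sg.smul t ht _ _ m2']
      have e3 : ∫ x, φ x * Q m t (D r) x ∂m = ∫ x, φ x * Q m s ρ x ∂m
          - ∫ x, φ x * Q m t ρ x ∂m - (r / 2) * ∫ x, φ x * Q m t ρ' x ∂m := by
        rw [e2, pair_sub hφ hB (mem_sub (sg.L1 t ht _ (L2 r hr0.le) (L r hr0.le)) (L t ht))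
          (mem_smul _ (L' t ht)), pair_sub hφ hB (sg.L1 t ht _ (L2 r hr0.le) (L r hr0.le)) (L t ht),
          pair_smul, ← e1]
      have e5 := hQD t r ht hr0
      rw [e3] at e5
      have e6 : 0 ≤ r * (B * S r) := mul_nonneg hr0.le (mul_nonneg hB1 hS0)
      rw [abs_le] at e5 ⊢
      constructor <;> nlinarith [e5.1, e5.2, e6]
  rw [← hasDerivWithinAt_diff_singleton, hasDerivWithinAt_iff_tendsto]
  have habs : Tendsto (fun s : ℝ => |s - t|) (𝓝[Ici 0 \ {t}] t) (𝓝[>] 0) := by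
    refine tendsto_nhdsWithin_iff.2 ⟨?_, ?_⟩
    · have : Tendsto (fun s : ℝ => |s - t|) (𝓝 t) (𝓝 |t - t|) :=
        ((continuous_id.sub continuous_const).abs).tendsto t
      rw [sub_self, abs_zero] at this
      exact this.mono_left nhdsWithin_le_nhds
    · filter_upwards [self_mem_nhdsWithin] with s hs
      exact abs_pos.2 (sub_ne_zero.2 hs.2)
  have hlim : Tendsto (fun s : ℝ => B * (R |s - t| + S |s - t|)) (𝓝[Ici 0 \ {t}] t) (𝓝 0) := by
    have := ((hR.comp habs).add (hS.comp habs)).const_mul B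
    simpa using this
  refine squeeze_zero' (Eventually.of_forall fun s => by positivity) ?_ hlim
  filter_upwards [self_mem_nhdsWithin] with s hs
  have hne : s ≠ t := hs.2
  have hpos : 0 < |s - t| := abs_pos.2 (sub_ne_zero.2 hne)
  have k := key s hs.1 hne
  rw [Real.norm_eq_abs, Real.norm_eq_abs, smul_eq_mul, inv_mul_le_iff₀ hpos]
  exact k

end Glue

open Glue

theorem inS_of (h1 : Blk_H1.{u}) (h2a : Blk_H2a.{u}) (h2b : Blk_H2b.{u}) (h2c : Blk_H2c.{u})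
    (h3b : Blk_H3b.{u}) (h4 : Blk_H4.{u}) (hS1 : Blk_S1.{u}) : Blk_InS.{u} := by
  intro M _ _ _ _ m n K θ δ hN hδ
  have a1 := h1 M m n K θ hN
  refine ⟨hN, hδ, sg0 hN a1, (h2b M m n K θ hN).1, ?_, ?_, h3b M m n K θ hN δ hδ,
    h4 M m n K θ hN, hS1 M m n K θ hN, ?_⟩
  · intro ρ ρ' h φ hφ hB t ht
    obtain ⟨B, hB⟩ := hB
    exact deriv_of hN h (h2c M m n K θ hN ρ ρ' h).1 (h2a M m n K θ hN ρ' h.lap.2.1 h.m1').1 a1 hφ hB
      ht
  · intro ρ ρ' h
    exact (h2c M m n K θ hN ρ ρ' h).2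
  · filter_upwards [hN.dens] with x hx η hη
    exact ⟨H866.asy0 hη (hN.fin x η) hN.θ_pos hx, H866.asy1 hη (hN.fin x η) hN.θ_pos hx⟩

end Vale.Agent.P233.RA
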