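import Vale.Agent.P233.H254.E45F

/-! P233, part E/C: swapping the quantifiers: almost every time, almost every point. -/

set_option linter.all false

open MeasureTheory Filter Topology Set
open scoped ENNReal NNReal InnerProductSpace

universe u v

namespace Vale.Agent.P233.FA

theorem ae_swap {M : Type u} [MeasurableSpace M] {m : Measure M} [SFinite m] {S : Set ℝ}
    {Q : M → ℝ → Prop} (hQ : MeasurableSet {z : M × ℝ | Q z.1 z.2})
    (h : ∀ᵐ t ∂(volume.restrict S), ∀ᵐ x ∂m, Q x t) :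
    ∀ᵐ x ∂m, ∀ᵐ t ∂(volume.restrict S), Q x t :=
  (Measure.ae_ae_comm hQ).2 h

/-! ### `ACto` -/

theorem ACto.congr_right {f g g' : ℝ → ℝ} {c : ℝ} (h : ACto f c g)
    (hg : ∀ᵐ t ∂(volume.restrict (Ioo (0 : ℝ) 1)), g t = g' t) : ACto f c g' := by
  have h0 : ∀ s ∈ Ioo (0 : ℝ) 1, g =ᵐ[volume.restrict (uIoc s 1)] g' := by
    intro s hs
    rw [uIoc_of_le hs.2.le, ← restrict_Ioo_eq_restrict_Ioc]
    exact ae_restrict_of_ae_restrict_of_subset (Ioo_subset_Ioo_left hs.1.le) hg
  refine ⟨fun s hs => (h.1 s hs).congr_ae (h0 s hs), ?_⟩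
  filter_upwards [h.2, ae_restrict_mem measurableSet_Ioo] with t ht ht'
  rw [ht, intervalIntegral.integral_congr_ae_restrict (h0 t ht')]

theorem ACto.congr_left {f f' g : ℝ → ℝ} {c : ℝ} (h : ACto f c g)
    (hf : ∀ᵐ t ∂(volume.restrict (Ioo (0 : ℝ) 1)), f t = f' t) : ACto f' c g := by
  refine ⟨h.1, ?_⟩
  filter_upwards [h.2, hf] with t ht ht'
  rw [← ht', ht]

theorem ACto.const_mul {f g : ℝ → ℝ} {c : ℝ} (h : ACto f c g) (a : ℝ) :
    ACto (fun t => a * f t) (a * c) (fun t => a * g t) := by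
  refine ⟨fun s hs => (h.1 s hs).const_mul a, ?_⟩
  filter_upwards [h.2] with t ht
  rw [ht, intervalIntegral.integral_const_mul]
  ring

theorem ACto.const (c : ℝ) : ACto (fun _ => c) c (fun _ => 0) := by
  refine ⟨fun s hs => intervalIntegrable_const, Eventually.of_forall fun t => ?_⟩
  simp

theorem ii_of_seq {f : ℝ → ℝ}
    (h : ∀ n : ℕ, IntervalIntegrable f volume (1 / ((n : ℝ) + 1)) 1) {s : ℝ}
    (hs : s ∈ Ioo (0 : ℝ) 1) : IntervalIntegrable f volume s 1 := by
  obtain ⟨n, hn⟩ := exists_nat_one_div_lt hs.1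
  refine (h n).mono_set ?_
  rw [uIcc_of_le hs.2.le, uIcc_of_le (hn.le.trans hs.2.le)]
  exact Icc_subset_Icc_left hn.le

/-- From (for every time, almost every point) to (for almost every point, almost every time). -/
theorem NS.curve_ac {M : Type u} [MeasurableSpace M] {m : Measure M} {Y : ℝ → M → M}
    (hn : NS m Y) [SFinite m] {f F a : M → ℝ}
    (hf : AEStronglyMeasurable f m) (hF : AEStronglyMeasurable F m) (ha : Measurable a)
    {P : M → Prop} (hP : MeasurableSet {x | P x})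
    (h : ∀ s ∈ Ioc (0 : ℝ) 1, ∀ᵐ x ∂m, P x → IntervalIntegrable (fun τ => F (Y τ x)) volume s 1 ∧
      f x - f (Y s x) = a x * ∫ τ in s..1, F (Y τ x)) :
    ∀ᵐ x ∂m, P x → ACto (fun t => f (Y t x)) (f x) (fun t => a x * F (Y t x)) := by
  set f' := hf.mk f with hf'
  set F' := hF.mk F with hF'
  have mf : Measurable f' := hf.stronglyMeasurable_mk.measurable
  have mF : StronglyMeasurable F' := hF.stronglyMeasurable_mk
  let g : M × ℝ → ℝ := fun z => ∫ τ, (Ioc z.2 1).indicator (fun τ => F' (Y τ z.1)) τ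
  have hg : StronglyMeasurable g := by
    have h1 : StronglyMeasurable fun q : (M × ℝ) × ℝ =>
        (Ioc q.1.2 1).indicator (fun τ => F' (Y τ q.1.1)) q.2 := by
      have h2 : (fun q : (M × ℝ) × ℝ => (Ioc q.1.2 1).indicator (fun τ => F' (Y τ q.1.1)) q.2)
          = {q : (M × ℝ) × ℝ | q.1.2 < q.2 ∧ q.2 ≤ 1}.indicator
            (fun q => F' (Y q.2 q.1.1)) := by
        funext q
        simp only [indicator, mem_Ioc, mem_setOf_eq]
      rw [h2]
      refine StronglyMeasurable.indicator ?_ ?_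
      · exact mF.comp_measurable (hn.meas.comp (measurable_snd.prodMk measurable_fst.fst))
      · exact (measurableSet_lt measurable_fst.snd measurable_snd).inter
          (measurableSet_le measurable_snd measurable_const)
    exact h1.integral_prod_right'
  have hg2 : ∀ x, ∀ s ∈ Ioc (0 : ℝ) 1, g (x, s) = ∫ τ in s..1, F' (Y τ x) := by
    intro x s hs
    show ∫ τ, (Ioc s 1).indicator (fun τ => F' (Y τ x)) τ = _
    rw [integral_indicator measurableSet_Ioc, intervalIntegral.integral_of_le hs.2]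
  have e1 : ∀ᵐ x ∂m, f x = f' x := hf.ae_eq_mk
  have e2 : ∀ᵐ x ∂m, F x = F' x := hF.ae_eq_mk
  have e3 := hn.ae e1
  have e4 := hn.ae e2
  have e5 : ∀ x, (∀ᵐ t ∂(volume.restrict (Ioc (0 : ℝ) 1)), F (Y t x) = F' (Y t x)) →
      ∀ s ∈ Ioc (0 : ℝ) 1, ∫ τ in s..1, F (Y τ x) = ∫ τ in s..1, F' (Y τ x) := by
    intro x hx s hs
    refine intervalIntegral.integral_congr_ae_restrict ?_
    rw [uIoc_of_le hs.2]
    exact ae_restrict_of_ae_restrict_of_subset (Ioc_subset_Ioc_left hs.1.le) hx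
  have k1 : ∀ᵐ x ∂m, ∀ᵐ s ∂(volume.restrict (Ioc (0 : ℝ) 1)),
      P x → f' x - f' (Y s x) = a x * g (x, s) := by
    refine ae_swap (Q := fun x s => P x → f' x - f' (Y s x) = a x * g (x, s)) ?_ ?_
    · have h1 : MeasurableSet {z : M × ℝ | f' z.1 - f' (Y z.2 z.1) = a z.1 * g (z.1, z.2)} :=
        measurableSet_eq_fun ((mf.comp measurable_fst).sub (mf.comp hn.meas_swap))
          ((ha.comp measurable_fst).mul hg.measurable)
      have h2 : {z : M × ℝ | P z.1 → f' z.1 - f' (Y z.2 z.1) = a z.1 * g (z.1, z.2)}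
          = (Prod.fst ⁻¹' {x | P x})ᶜ ∪ {z : M × ℝ | f' z.1 - f' (Y z.2 z.1) = a z.1 * g (z.1, z.2)} := by
        ext z
        simp only [mem_setOf_eq, mem_union, mem_compl_iff, mem_preimage]
        tauto
      rw [h2]
      exact ((measurable_fst hP).compl).union h1
    · filter_upwards [ae_restrict_mem measurableSet_Ioc] with s hs
      filter_upwards [h s hs, e1, hn.ae_t e1 hs, e4] with x a1 a2 a3 a4 hx
      rw [hg2 x s hs, ← e5 x a4 s hs, ← a2, ← a3]
      exact (a1 hx).2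
  have k2 : ∀ᵐ x ∂m, ∀ n : ℕ, P x →
      IntervalIntegrable (fun τ => F (Y τ x)) volume (1 / ((n : ℝ) + 1)) 1 := by
    refine ae_all_iff.2 fun n => ?_
    have hs : 1 / ((n : ℝ) + 1) ∈ Ioc (0 : ℝ) 1 := by
      constructor
      · positivity
      · rw [div_le_one (by positivity)]; linarith [(Nat.cast_nonneg n : (0 : ℝ) ≤ n)]
    filter_upwards [h _ hs] with x hx hx'
    exact (hx hx').1
  filter_upwards [k1, k2, e1, e3, e4] with x a1 a2 a3 a4 a5 hx
  refine ⟨fun s hs => (ii_of_seq (fun n => a2 n hx) hs).const_mul _, ?_⟩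
  refine ae_restrict_of_ae_restrict_of_subset Ioo_subset_Ioc_self ?_
  filter_upwards [a1, a4, ae_restrict_mem measurableSet_Ioc] with t b1 b2 ht
  have b3 := b1 hx
  rw [hg2 x t ht, ← e5 x a5 t ht, ← a3, ← b2] at b3
  rw [intervalIntegral.integral_const_mul]
  linarith

end Vale.Agent.P233.FA
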