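import Vale.Agent.P233.Gig.IfC
import Vale.Agent.P233.H254.Swap
import Vale.Agent.P233.H561.E2

/-! P233, junction of parts C and E: `COut` implies `FlowH` (without the Lewy–Stampacchia field,
which is a hypothesis here). -/

set_option linter.all false

open MeasureTheory Filter Topology Set
open scoped ENNReal NNReal InnerProductSpace

universe u v

namespace Vale.Agent.P233.JCE

open Vale.Agent.P233.FA Vale.Agent.P233.PC

/-! ### algebra -/

section alg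

variable {E : Type v} [NormedAddCommGroup E] [InnerProductSpace ℝ E]

theorem exists_rat_seq (c : ℕ →₀ ℝ) : ∃ q : ℕ → (ℕ →₀ ℚ), ∀ w : ℕ → E,
    Tendsto (fun n => cmb w (q n)) atTop (𝓝 (cmr w c)) := by
  classical
  have h1 : ∀ (i n : ℕ), ∃ r : ℚ, c i < (r : ℝ) ∧ (r : ℝ) < c i + 1 / ((n : ℝ) + 1) := fun i n =>
    exists_rat_btwn (by have : (0 : ℝ) < 1 / ((n : ℝ) + 1) := by positivity
                        linarith)
  choose r hr1 hr2 using h1
  refine ⟨fun n => Finsupp.onFinset c.support (fun i => if i ∈ c.support then r i n else 0)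
    (fun i hi => by by_contra h; simp [h] at hi), fun w => ?_⟩
  have h2 : ∀ n, cmb w (Finsupp.onFinset c.support (fun i => if i ∈ c.support then r i n else 0)
      (fun i hi => by by_contra h; simp [h] at hi)) = ∑ i ∈ c.support, (r i n : ℝ) • w i := by
    intro n
    unfold cmb
    rw [Finsupp.onFinset_sum _ (by simp)]
    refine Finset.sum_congr rfl fun i hi => ?_
    rw [if_pos hi]
  simp only [h2]
  unfold cmr
  rw [Finsupp.sum]
  refine tendsto_finset_sum _ fun i _ => Tendsto.smul_const ?_ _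
  refine tendsto_of_tendsto_of_tendsto_of_le_of_le (g := fun _ => c i)
    (h := fun n : ℕ => c i + 1 / ((n : ℝ) + 1)) tendsto_const_nhds ?_ (fun n => (hr1 i n).le)
    (fun n => (hr2 i n).le)
  simpa using tendsto_const_nhds.add (tendsto_one_div_add_atTop_nhds_zero_nat (𝕜 := ℝ))

theorem mem_clo_iff (g : ℕ → E) (v : E) :
    v ∈ (Submodule.span ℝ (range g)).topologicalClosure ↔
      ∀ n : ℕ, ∃ c : ℕ →₀ ℚ, ‖v - cmb g c‖ < 1 / ((n : ℝ) + 1) := by
  constructor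
  · intro h n
    have h1 : v ∈ closure ((Submodule.span ℝ (range g) : Submodule ℝ E) : Set E) := h
    rw [Metric.mem_closure_iff] at h1
    obtain ⟨w, hw, hvw⟩ := h1 (1 / ((n : ℝ) + 1)) (by positivity)
    obtain ⟨c, rfl⟩ := Finsupp.mem_span_range_iff_exists_finsupp.1 hw
    obtain ⟨q, hq⟩ := exists_rat_seq (E := E) c
    have h2 : Tendsto (fun n => ‖v - cmb g (q n)‖) atTop (𝓝 ‖v - cmr g c‖) :=
      (tendsto_const_nhds.sub (hq g)).norm
    rw [dist_eq_norm] at hvw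
    obtain ⟨k, hk⟩ := (h2.eventually (gt_mem_nhds hvw)).exists
    exact ⟨q k, hk⟩
  · intro h
    show v ∈ closure ((Submodule.span ℝ (range g) : Submodule ℝ E) : Set E)
    rw [Metric.mem_closure_iff]
    intro ε hε
    obtain ⟨n, hn⟩ := exists_nat_one_div_lt hε
    obtain ⟨c, hc⟩ := h n
    refine ⟨cmb g c, ?_, by rw [dist_eq_norm]; exact hc.trans hn⟩
    exact Submodule.sum_mem _ fun i _ => Submodule.smul_mem _ _ (Submodule.subset_span ⟨i, rfl⟩)

theorem sm_cmb {α : Type*} [MeasurableSpace α] {f : ℕ → α → E}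
    (hf : ∀ i, StronglyMeasurable (f i)) (c : ℕ →₀ ℚ) :
    StronglyMeasurable fun x => cmb (fun i => f i x) c := by
  show StronglyMeasurable fun x => ∑ i ∈ c.support, (c i : ℝ) • f i x
  exact Finset.stronglyMeasurable_fun_sum _ fun i _ => (hf i).const_smul _

end alg

/-! ### the radial data -/

section rad

variable {M : Type u} [MetricSpace M] [MeasurableSpace M] {m : Measure M}
variable {p : M} {s₀ C₀ : ℝ} {x : M}

theorem lt_r1_iff : dist p x < r1 s₀ C₀ ↔ dist p x ^ 2 < 2 * C₀ * (1 + s₀) :=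
  Real.lt_sqrt dist_nonneg

theorem spd_in (h : dist p x < r1 s₀ C₀) : spd p s₀ C₀ x = spd1 p s₀ x := by
  unfold spd spd1
  rw [if_pos (lt_r1_iff.1 h)]

theorem spd_out (h : ¬ dist p x < r1 s₀ C₀) : spd p s₀ C₀ x = 0 := by
  unfold spd
  rw [if_neg fun h' => h (lt_r1_iff.2 h')]

end rad

section main

variable {M : Type u} [MetricSpace M] [MeasurableSpace M] [BorelSpace M]
  [SecondCountableTopology M] {m : Measure M} {K N κ : ℝ}
variable {E : Type} [NormedAddCommGroup E] [InnerProductSpace ℝ E]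
variable {Gr : (M →ₘ[m] ℝ) → M → E} {HO : (M →ₘ[m] ℝ) → M → E →L[ℝ] E} {e : ℕ → M →ₘ[m] ℝ}
variable {p : M} {s₀ C₀ : ℝ} {Y : ℝ → M → M}

theorem dc_mem_W (hS : Std m K N) : dc m p s₀ C₀ ∈ (sob m).W := dtr_mem_W hS p _

theorem ns' (hN : 0 < N) (h : RFlow m K N p s₀ C₀ Y) : NS m Y := by
  refine ⟨h.meas, fun s hs => ⟨(cK K C₀ * s ^ (-N)).toNNReal, fun t ht => ?_⟩⟩
  have ht' : t ∈ Ioc (0 : ℝ) 1 := ⟨lt_of_lt_of_le hs.1 ht.1, ht.2⟩
  rw [Measure.le_iff]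
  intro A hA
  have hm : Measurable (Y t) := h.meas.comp (measurable_const.prodMk measurable_id)
  rw [Measure.map_apply hm hA]
  refine (h.dens t ht' A hA).trans ?_
  show ENNReal.ofReal (cK K C₀ * t ^ (-N)) * m A ≤ ENNReal.ofReal (cK K C₀ * s ^ (-N)) * m A
  gcongr ENNReal.ofReal ?_ * _
  refine mul_le_mul_of_nonneg_left (Real.rpow_le_rpow_of_nonpos hs.1 ht.1 (by linarith)) ?_
  unfold cK; positivity

theorem rpos_meas : MeasurableSet {x : M | dist p x < r1 s₀ C₀} :=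
  measurableSet_lt (continuous_const.dist continuous_id).measurable measurable_const

theorem spd1_meas : Measurable fun x : M => spd1 p s₀ x :=
  (continuous_const.dist continuous_id).measurable.div_const _

/-- C3 (a) -/
theorem ac1 (hS : Std m K N) (hst : Stat (sob m) Gr HO e) [SFinite m]
    (h : RFlow m K N p s₀ C₀ Y) {b : M →ₘ[m] ℝ} (hb : b ∈ (sob m).W) :
    ∀ᵐ x ∂m, ACto (fun t => b (Y t x)) (b x)
      fun t => ⟪Gr b (Y t x), vel Gr p s₀ C₀ Y t x⟫_ℝ := by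
  have hn := ns' hS.hN h
  have h1 := hn.curve_ac (f := b) (F := (sob m).Γ b (dc m p s₀ C₀)) (a := fun x => spd1 p s₀ x)
    (P := fun x => dist p x < r1 s₀ C₀) b.aestronglyMeasurable
    (AEEqFun.aestronglyMeasurable _) spd1_meas rpos_meas (fun s hs => by
      filter_upwards [h.der b hb s hs 1 ⟨hs.2, le_rfl⟩] with x hx hx'
      have h2 := (hx hx').2
      rw [h.one] at h2
      exact ⟨(hx hx').1, h2⟩)
  have h2 := hn.ae' (Q := fun y => ⟪Gr b y, Gr (dc m p s₀ C₀) y⟫_ℝ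
    = (sob m).Γ b (dc m p s₀ C₀) y) (hst.grad.inner _ hb _ (dc_mem_W hS))
  filter_upwards [h1, h2] with x a1 a2
  by_cases hx : dist p x < r1 s₀ C₀
  · refine ACto.congr_right (a1 hx) ?_
    filter_upwards [a2] with t ht
    show spd1 p s₀ x * _ = ⟪Gr b (Y t x), spd p s₀ C₀ x • Gr (dc m p s₀ C₀) (Y t x)⟫_ℝ
    rw [real_inner_smul_right, ht, spd_in hx]
  · have h3 : ∀ t, Y t x = x := h.off x (not_lt.1 hx)
    have h4 : (fun t => b (Y t x)) = fun _ => b x := by funext t; rw [h3]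
    have h5 : (fun t => ⟪Gr b (Y t x), vel Gr p s₀ C₀ Y t x⟫_ℝ) = fun _ => 0 := by
      funext t
      unfold vel
      rw [spd_out hx, zero_smul, inner_zero_right]
    rw [h4, h5]
    exact ACto.const _

/-- C3 (b) -/
theorem ac2 (hS : Std m K N) (hst : Stat (sob m) Gr HO e) [SFinite m]
    (h : RFlow m K N p s₀ C₀ Y) (h2 : Second m Gr HO p s₀ C₀ Y) {b : M →ₘ[m] ℝ}
    (hb : b ∈ (sob m).TestI) :
    ∀ᵐ x ∂m, ACto (fun t => ⟪Gr b (Y t x), vel Gr p s₀ C₀ Y t x⟫_ℝ)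
      ⟪Gr b x, vel Gr p s₀ C₀ Y 1 x⟫_ℝ
      fun t => ⟪HO b (Y t x) (vel Gr p s₀ C₀ Y t x), vel Gr p s₀ C₀ Y t x⟫_ℝ := by
  have hn := ns' hS.hN h
  have hbW : b ∈ (sob m).W := ((gam hS).mem_test_iff.1 hb.1).1
  have hd := dc_mem_W (p := p) (s₀ := s₀) (C₀ := C₀) hS
  have hsm : AEStronglyMeasurable (Gr (dc m p s₀ C₀)) m := (hst.gmeas _ hd).aestronglyMeasurable
  have h1 := hn.curve_ac (f := (sob m).Γ b (dc m p s₀ C₀))
    (F := fun y => ⟪HO b y (Gr (dc m p s₀ C₀) y), Gr (dc m p s₀ C₀) y⟫_ℝ)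
    (a := fun x => spd1 p s₀ x)
    (P := fun x => dist p x < r1 s₀ C₀) (AEEqFun.aestronglyMeasurable _)
    ((aesm_apply (hst.hess.meas b hb.1) hsm).inner hsm) spd1_meas rpos_meas (fun s hs => by
      filter_upwards [h2 b hb s hs 1 ⟨hs.2, le_rfl⟩] with x hx hx'
      have h2 := (hx hx').2
      rw [h.one] at h2
      exact ⟨(hx hx').1, h2⟩)
  have h3 := hn.ae' (Q := fun y => ⟪Gr b y, Gr (dc m p s₀ C₀) y⟫_ℝ
    = (sob m).Γ b (dc m p s₀ C₀) y) (hst.grad.inner _ hbW _ hd)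
  filter_upwards [h1, h3, hst.grad.inner _ hbW _ hd] with x a1 a2 a3
  by_cases hx : dist p x < r1 s₀ C₀
  · have a4 := ACto.const_mul (a1 hx) (spd1 p s₀ x)
    have a5 : ⟪Gr b x, vel Gr p s₀ C₀ Y 1 x⟫_ℝ = spd1 p s₀ x * (sob m).Γ b (dc m p s₀ C₀) x := by
      show ⟪Gr b x, spd p s₀ C₀ x • Gr (dc m p s₀ C₀) (Y 1 x)⟫_ℝ = _
      rw [real_inner_smul_right, h.one, a3, spd_in hx]
    rw [a5]
    refine ACto.congr_left (ACto.congr_right a4 (Eventually.of_forall fun t => ?_)) ?_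
    · show spd1 p s₀ x * (spd1 p s₀ x * _) = ⟪HO b (Y t x) (spd p s₀ C₀ x •
        Gr (dc m p s₀ C₀) (Y t x)), spd p s₀ C₀ x • Gr (dc m p s₀ C₀) (Y t x)⟫_ℝ
      rw [map_smul, real_inner_smul_right, real_inner_smul_left, spd_in hx]
    · filter_upwards [a2] with t ht
      show _ = ⟪Gr b (Y t x), spd p s₀ C₀ x • Gr (dc m p s₀ C₀) (Y t x)⟫_ℝ
      rw [real_inner_smul_right, ht, spd_in hx]
  · have h4 : ∀ t, vel Gr p s₀ C₀ Y t x = 0 := by
      intro t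
      unfold vel
      rw [spd_out hx, zero_smul]
    simp only [h4, inner_zero_right]
    exact ACto.const _

theorem ns_unit (hS : Std m K N) (hst : Stat (sob m) Gr HO e) {φ ρ : ℝ → M →ₘ[m] ℝ}
    {R : ℝ → ℝ → (M →ₘ[m] ℝ) → (M →ₘ[m] ℝ)} (hl : Lim m K N p s₀ C₀ φ ρ R) :
    ∀ᵐ x ∂m, dist p x ^ 2 < 2 * C₀ * (1 + s₀) → ‖rdir Gr p s₀ C₀ x‖ = 1 := by
  filter_upwards [hl.unit, hst.grad.norm_eq (dc_mem_W (p := p) (s₀ := s₀) (C₀ := C₀) hS)]
    with x h1 h2 hx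
  show ‖Gr (dc m p s₀ C₀) x‖ = 1
  rw [h2, h1 (lt_r1_iff.2 hx), Real.sqrt_one]

/-- the flow, given the Lewy–Stampacchia field -/
theorem flow (hS : Std m K N) (hs : 0 < s₀) (hC : 0 < C₀) (hst : Stat (sob m) Gr HO e) [SFinite m]
    {φ ρ : ℝ → M →ₘ[m] ℝ} {R : ℝ → ℝ → (M →ₘ[m] ℝ) → (M →ₘ[m] ℝ)}
    (hl : Lim m K N p s₀ C₀ φ ρ R) (h : RFlow m K N p s₀ C₀ Y) (h2 : Second m Gr HO p s₀ C₀ Y)
    (hls : ∀ s ∈ Ioo (0 : ℝ) 1, ∃ A : ℝ, ∀ᵐ t ∂(volume.restrict (Ioo s (1 - s))), ∀ ε > 0,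
      ∃ h ∈ (sob m).TestI, (sob m).nrm2 h + I ((sob m).lap h ^ 2) ≤ A ∧
        ∫⁻ x, ENNReal.ofReal (‖Gr h (Y t x) - vel Gr p s₀ C₀ Y t x‖ ^ 2) ∂m ≤ ENNReal.ofReal ε) :
    Flow Gr HO p s₀ C₀ Y where
  hs₀ := hs
  hC₀ := hC
  meas := h.meas
  one := h.one
  geod := by
    filter_upwards [h.geo] with x hx s hs t ht
    by_cases hx' : dist p x < r1 s₀ C₀
    · rw [hx hx' s ⟨hs.1.le, hs.2⟩ t ⟨ht.1.le, ht.2⟩, spd_in hx', mul_comm]
    · rw [h.off x (not_lt.1 hx') s, h.off x (not_lt.1 hx') t, dist_self, spd_out hx', zero_mul]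
  rad := by
    filter_upwards [h.rad] with x hx hx' t ht
    rw [hx (lt_r1_iff.2 hx') t ⟨ht.1.le, ht.2⟩]
    unfold spd1
    ring
  comp := (ns' hS.hN h).comp
  unit := ns_unit hS hst hl
  ac1 := fun b hb => ac1 hS hst h hb
  ac2 := fun b hb => ac2 hS hst h h2 hb
  ls := hls

end main

end Vale.Agent.P233.JCE
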