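import Vale.Agent.P233.H254.JCE
import Mathlib.Data.Finsupp.Encodable

/-! P233, junction of parts C and E, second part: the Hessian field. -/

set_option linter.all false

open MeasureTheory Filter Topology Set
open scoped ENNReal NNReal InnerProductSpace

universe u v

namespace Vale.Agent.P233.JCE

open Vale.Agent.P233.FA Vale.Agent.P233.PC

section main

variable {M : Type u} [MetricSpace M] [MeasurableSpace M] [BorelSpace M]
  [SecondCountableTopology M] {m : Measure M} {K N κ : ℝ}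
variable {E : Type} [NormedAddCommGroup E] [InnerProductSpace ℝ E]
variable {Gr : (M →ₘ[m] ℝ) → M → E} {HO : (M →ₘ[m] ℝ) → M → E →L[ℝ] E} {e : ℕ → M →ₘ[m] ℝ}
variable {p : M} {s₀ C₀ : ℝ} {Y : ℝ → M → M}
variable {Hs : (M →ₘ[m] ℝ) → ℝ → M → E} {Λ : ℝ → M → ℝ}

theorem Ioo_of_Ioc {P : ℝ → Prop} (h : ∀ᵐ t ∂(volume.restrict (Ioc (0 : ℝ) 1)), P t) :
    ∀ᵐ t ∂(volume.restrict (Ioo (0 : ℝ) 1)), P t :=
  ae_restrict_of_ae_restrict_of_subset Ioo_subset_Ioc_self h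

/-- linearity for rational combinations -/
theorem lin_cmb (hS : Std m K N) (hst : Stat (sob m) Gr HO e)
    (lin : ∀ h ∈ (sob m).TestI, ∀ h' ∈ (sob m).TestI, ∀ c : ℝ,
      ∀ᵐ t ∂(volume.restrict (Ioc (0 : ℝ) 1)), ∀ᵐ x ∂m,
      Hs (h + c • h') t (Y t x) = Hs h t (Y t x) + c • Hs h' t (Y t x)) (c : ℕ →₀ ℚ) :
    ∀ᵐ t ∂(volume.restrict (Ioc (0 : ℝ) 1)), ∀ᵐ x ∂m,
      Hs (cmb e c) t (Y t x) = cmb (fun i => Hs (e i) t (Y t x)) c := by
  classical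
  have hC := gam hS
  have hB := bei hS
  have key : ∀ s : Finset ℕ, ∀ᵐ t ∂(volume.restrict (Ioc (0 : ℝ) 1)), ∀ᵐ x ∂m,
      Hs (∑ i ∈ s, (c i : ℝ) • e i) t (Y t x) = ∑ i ∈ s, (c i : ℝ) • Hs (e i) t (Y t x) := by
    intro s
    induction s using Finset.induction_on with
    | empty =>
      have h0 := hC.testI_zero hB
      filter_upwards [lin 0 h0 0 h0 1] with t ht
      filter_upwards [ht] with x hx
      rw [one_smul, one_smul, add_zero] at hx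
      rw [Finset.sum_empty, Finset.sum_empty]
      exact left_eq_add.1 hx
    | insert i s hi ih =>
      have h1 : ∑ j ∈ s, (c j : ℝ) • e j ∈ (sob m).TestI :=
        H561.fsum_testI hC hB hst.testI (fun j => (c j : ℝ)) s
      filter_upwards [ih, lin _ h1 _ (hst.testI i) (c i : ℝ)] with t h2 h3
      filter_upwards [h2, h3] with x h4 h5
      rw [Finset.sum_insert hi, Finset.sum_insert hi, add_comm, h5, h4, add_comm]
  exact key c.support

theorem sm_H (hn : NS m Y) {h : M →ₘ[m] ℝ}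
    (hh : StronglyMeasurable fun z : ℝ × M => Hs h z.1 z.2) :
    StronglyMeasurable fun z : M × ℝ => Hs h z.2 (Y z.2 z.1) :=
  hh.comp_measurable (measurable_snd.prodMk hn.meas_swap)

theorem sm_G (hn : NS m Y) {h : M →ₘ[m] ℝ} (hh : StronglyMeasurable (Gr h)) :
    StronglyMeasurable fun z : M × ℝ => Gr h (Y z.2 z.1) :=
  hh.comp_measurable hn.meas_swap

section
variable {φ ρ : ℝ → M →ₘ[m] ℝ} {R : ℝ → ℝ → (M →ₘ[m] ℝ) → (M →ₘ[m] ℝ)}

/-- linearity, swapped -/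
theorem lin_sw (hS : Std m K N) [SFinite m] (hst : Stat (sob m) Gr HO e)
    (h : COut m K N κ Gr HO e p s₀ C₀ φ ρ R Y Hs Λ) :
    ∀ᵐ x ∂m, ∀ c : ℕ →₀ ℚ, ∀ᵐ t ∂(volume.restrict (Ioc (0 : ℝ) 1)),
      Hs (cmb e c) t (Y t x) = cmb (fun i => Hs (e i) t (Y t x)) c := by
  have hn := ns' hS.hN h.flow
  refine ae_all_iff.2 fun c => ?_
  refine ae_swap (Q := fun x t => Hs (cmb e c) t (Y t x) = cmb (fun i => Hs (e i) t (Y t x)) c) ?_
    (lin_cmb hS hst h.lin c)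
  exact (sm_H hn (h.meas _ (H561.cmb_testI (gam hS) (bei hS) hst.testI c))).measurableSet_eq_fun
    (sm_cmb (f := fun i (z : M × ℝ) => Hs (e i) z.2 (Y z.2 z.1))
      (fun i => sm_H hn (h.meas _ (hst.testI i))) c)

theorem gr_sw (hS : Std m K N) [SFinite m] (hst : Stat (sob m) Gr HO e)
    (hn : NS m Y) :
    ∀ᵐ x ∂m, ∀ c : ℕ →₀ ℚ, ∀ᵐ t ∂(volume.restrict (Ioc (0 : ℝ) 1)),
      Gr (cmb e c) (Y t x) = cmb (fun i => Gr (e i) (Y t x)) c :=
  ae_all_iff.2 fun c => hn.ae (Q := fun y => Gr (cmb e c) y = cmb (fun i => Gr (e i) y) c)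
    (H561.cmb_gr (gam hS) (bei hS) hst.grad hst.testI c)

theorem ho_sw (hS : Std m K N) [SFinite m] (hst : Stat (sob m) Gr HO e)
    (hn : NS m Y) :
    ∀ᵐ x ∂m, ∀ c : ℕ →₀ ℚ, ∀ᵐ t ∂(volume.restrict (Ioc (0 : ℝ) 1)),
      HO (cmb e c) (Y t x) = cmb (fun i => HO (e i) (Y t x)) c :=
  ae_all_iff.2 fun c => hn.ae (Q := fun y => HO (cmb e c) y = cmb (fun i => HO (e i) y) c)
    (H561.cmb_ho (gam hS) (bei hS) hst.hess.lin hst.testI c)

theorem bound (hS : Std m K N) [SFinite m] (hst : Stat (sob m) Gr HO e)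
    (h : COut m K N κ Gr HO e p s₀ C₀ φ ρ R Y Hs Λ) :
    ∀ᵐ x ∂m, ∀ᵐ t ∂(volume.restrict (Ioo (0 : ℝ) 1)), ∀ c : ℕ →₀ ℝ,
    ‖cmr (fun i => Hs (e i) t (Y t x)) c‖ ≤ Λ t (Y t x) * ‖cmr (fun i => Gr (e i) (Y t x)) c‖ := by
  have hn := ns' hS.hN h.flow
  have hW := eW hS hst
  have h1 : ∀ᵐ x ∂m, ∀ᵐ t ∂(volume.restrict (Ioc (0 : ℝ) 1)), ∀ c : ℕ →₀ ℚ,
      ‖cmb (fun i => Hs (e i) t (Y t x)) c‖
        ≤ Λ t (Y t x) * ‖cmb (fun i => Gr (e i) (Y t x)) c‖ := by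
    have h2 : ∀ c : ℕ →₀ ℚ, ∀ᵐ x ∂m, ∀ᵐ t ∂(volume.restrict (Ioc (0 : ℝ) 1)),
        ‖cmb (fun i => Hs (e i) t (Y t x)) c‖
          ≤ Λ t (Y t x) * ‖cmb (fun i => Gr (e i) (Y t x)) c‖ := by
      intro c
      refine ae_swap (Q := fun x t => ‖cmb (fun i => Hs (e i) t (Y t x)) c‖
          ≤ Λ t (Y t x) * ‖cmb (fun i => Gr (e i) (Y t x)) c‖) ?_ ?_
      · refine measurableSet_le ?_ ?_
        · exact (sm_cmb (f := fun i (z : M × ℝ) => Hs (e i) z.2 (Y z.2 z.1))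
            (fun i => sm_H hn (h.meas _ (hst.testI i))) c).norm.measurable
        · exact (h.measΛ.comp (measurable_snd.prodMk hn.meas_swap)).mul
            (sm_cmb (f := fun i (z : M × ℝ) => Gr (e i) (Y z.2 z.1))
            (fun i => sm_G hn (hst.gmeas _ (hW i))) c).norm.measurable
      · have hc := H561.cmb_testI (gam hS) (bei hS) hst.testI c
        filter_upwards [h.bd _ hc, lin_cmb hS hst h.lin c, ae_restrict_mem measurableSet_Ioc]
          with t a1 a2 ht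
        filter_upwards [a1, a2, hn.ae_t (H561.cmb_gr (gam hS) (bei hS) hst.grad hst.testI c) ht]
          with x b1 b2 b3
        rw [← b2, ← b3]
        exact b1
    filter_upwards [ae_all_iff.2 h2] with x hx
    exact ae_all_iff.2 hx
  filter_upwards [h1] with x hx
  filter_upwards [Ioo_of_Ioc hx] with t ht c
  obtain ⟨q, hq⟩ := exists_rat_seq (E := E) c
  exact le_of_tendsto_of_tendsto' (hq fun i => Hs (e i) t (Y t x)).norm
    (tendsto_const_nhds.mul (hq fun i => Gr (e i) (Y t x)).norm) fun n => ht (q n)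

theorem symm (hS : Std m K N) [SFinite m] (hst : Stat (sob m) Gr HO e)
    (h : COut m K N κ Gr HO e p s₀ C₀ φ ρ R Y Hs Λ) :
    ∀ᵐ x ∂m, ∀ᵐ t ∂(volume.restrict (Ioo (0 : ℝ) 1)), ∀ i j,
      ⟪Hs (e i) t (Y t x), Gr (e j) (Y t x)⟫_ℝ = ⟪Gr (e i) (Y t x), Hs (e j) t (Y t x)⟫_ℝ := by
  have hn := ns' hS.hN h.flow
  have hW := eW hS hst
  have h2 : ∀ i j, ∀ᵐ x ∂m, ∀ᵐ t ∂(volume.restrict (Ioc (0 : ℝ) 1)),
      ⟪Hs (e i) t (Y t x), Gr (e j) (Y t x)⟫_ℝ = ⟪Gr (e i) (Y t x), Hs (e j) t (Y t x)⟫_ℝ := by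
    intro i j
    refine ae_swap (Q := fun x t => ⟪Hs (e i) t (Y t x), Gr (e j) (Y t x)⟫_ℝ
      = ⟪Gr (e i) (Y t x), Hs (e j) t (Y t x)⟫_ℝ) ?_ ?_
    · exact measurableSet_eq_fun
        ((sm_H hn (h.meas _ (hst.testI i))).inner (sm_G hn (hst.gmeas _ (hW j)))).measurable
        ((sm_G hn (hst.gmeas _ (hW i))).inner (sm_H hn (h.meas _ (hst.testI j)))).measurable
    · filter_upwards [h.sym _ (hst.testI i) _ (hst.testI j)] with t ht
      filter_upwards [ht] with x hx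
      rw [hx, real_inner_comm]
  filter_upwards [ae_all_iff.2 fun i => ae_all_iff.2 (h2 i)] with x hx
  exact Ioo_of_Ioc (ae_all_iff.2 fun i => ae_all_iff.2 (hx i))

theorem span (hS : Std m K N) [SFinite m] (hst : Stat (sob m) Gr HO e)
    (h : COut m K N κ Gr HO e p s₀ C₀ φ ρ R Y Hs Λ) :
    ∀ᵐ x ∂m, ∀ᵐ t ∂(volume.restrict (Ioo (0 : ℝ) 1)), ∀ i,
      Hs (e i) t (Y t x) ∈
        (Submodule.span ℝ (range fun j => Gr (e j) (Y t x))).topologicalClosure := by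
  have hn := ns' hS.hN h.flow
  have hW := eW hS hst
  have h2 : ∀ i, ∀ᵐ x ∂m, ∀ᵐ t ∂(volume.restrict (Ioc (0 : ℝ) 1)), Hs (e i) t (Y t x) ∈
        (Submodule.span ℝ (range fun j => Gr (e j) (Y t x))).topologicalClosure := by
    intro i
    refine ae_swap (Q := fun x t => Hs (e i) t (Y t x) ∈
        (Submodule.span ℝ (range fun j => Gr (e j) (Y t x))).topologicalClosure) ?_
        (h.span _ (hst.testI i))
    have h3 : {z : M × ℝ | Hs (e i) z.2 (Y z.2 z.1) ∈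
        (Submodule.span ℝ (range fun j => Gr (e j) (Y z.2 z.1))).topologicalClosure}
        = ⋂ n : ℕ, ⋃ c : ℕ →₀ ℚ, {z : M × ℝ | ‖Hs (e i) z.2 (Y z.2 z.1)
          - cmb (fun j => Gr (e j) (Y z.2 z.1)) c‖ < 1 / ((n : ℝ) + 1)} := by
      ext z
      simp only [mem_setOf_eq, mem_iInter, mem_iUnion]
      exact mem_clo_iff _ _
    rw [h3]
    refine MeasurableSet.iInter fun n => MeasurableSet.iUnion fun c => ?_
    refine measurableSet_lt ?_ measurable_const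
    exact ((sm_H hn (h.meas _ (hst.testI i))).sub
      (sm_cmb (f := fun i (z : M × ℝ) => Gr (e i) (Y z.2 z.1))
            (fun i => sm_G hn (hst.gmeas _ (hW i))) c)).norm.measurable
  filter_upwards [ae_all_iff.2 h2] with x hx
  exact Ioo_of_Ioc (ae_all_iff.2 hx)

theorem lsq (hS : Std m K N) [SFinite m] (h : COut m K N κ Gr HO e p s₀ C₀ φ ρ R Y Hs Λ) :
    ∀ s ∈ Ioo (0 : ℝ) 1,
      ∫⁻ x, (∫⁻ t in Ioo s 1, ENNReal.ofReal (Λ t (Y t x) ^ 2)) ∂m < ∞ := by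
  intro s hs
  have hn := ns' hS.hN h.flow
  have h3 : Measurable fun q : M × ℝ => ENNReal.ofReal (Λ q.2 (Y q.2 q.1) ^ 2) :=
    ((h.measΛ.comp (measurable_snd.prodMk hn.meas_swap)).pow_const 2).ennreal_ofReal
  rw [lintegral_lintegral_swap (f := fun x t => ENNReal.ofReal (Λ t (Y t x) ^ 2)) h3.aemeasurable]
  exact lt_of_le_of_lt (lintegral_mono_set Ioo_subset_Ioc_self) (h.int s hs)

end

end main

end Vale.Agent.P233.JCE
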