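import Vale.Agent.P233.H254.JCE2

/-! P233, junction of parts C and E, third part: Riccati inequality, end point, and the assembly. -/

set_option linter.all false

open MeasureTheory Filter Topology Set
open scoped ENNReal NNReal InnerProductSpace

universe u v

namespace Vale.Agent.P233.JCE

open Vale.Agent.P233.FA Vale.Agent.P233.PC

section main

variable {M : Type u} [MetricSpace M] [MeasurableSpace M] [BorelSpace M]
  [SecondCountableTopology M] {m : Measure M} {K N κ : ℝ}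
variable {E : Type} [NormedAddCommGroup E] [InnerProductSpace ℝ E]
variable {Gr : (M →ₘ[m] ℝ) → M → E} {HO : (M →ₘ[m] ℝ) → M → E →L[ℝ] E} {e : ℕ → M →ₘ[m] ℝ}
variable {p : M} {s₀ C₀ : ℝ} {Y : ℝ → M → M}
variable {Hs : (M →ₘ[m] ℝ) → ℝ → M → E} {Λ : ℝ → M → ℝ}
variable {φ ρ : ℝ → M →ₘ[m] ℝ} {R : ℝ → ℝ → (M →ₘ[m] ℝ) → (M →ₘ[m] ℝ)}

theorem ricc (hS : Std m K N) [SFinite m] (hst : Stat (sob m) Gr HO e)
    (h : COut m K N κ Gr HO e p s₀ C₀ φ ρ R Y Hs Λ) :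
    ∀ᵐ x ∂m, ∀ c : ℕ →₀ ℚ, ∀ᵐ s ∂(volume.restrict (Ioo (0 : ℝ) 1)),
    ∀ᵐ t ∂(volume.restrict (Ioo s 1)),
    ⟪cmb (fun i => Hs (e i) t (Y t x)) c, cmb (fun i => Gr (e i) (Y t x)) c⟫_ℝ
      - ⟪cmb (fun i => Hs (e i) s (Y s x)) c, cmb (fun i => Gr (e i) (Y s x)) c⟫_ℝ
      ≤ ∫ r in s..t, (2 * ⟪cmb (fun i => Hs (e i) r (Y r x)) c,
            cmb (fun i => HO (e i) (Y r x) (vel Gr p s₀ C₀ Y r x)) c⟫_ℝ
          - ‖cmb (fun i => Hs (e i) r (Y r x)) c‖ ^ 2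
          - κ * (‖cmb (fun i => Gr (e i) (Y r x)) c‖ ^ 2 * spd p s₀ C₀ x ^ 2
              - ⟪cmb (fun i => Gr (e i) (Y r x)) c, vel Gr p s₀ C₀ Y r x⟫_ℝ ^ 2)) := by
  have hn := ns' hS.hN h.flow
  have hc : ∀ c : ℕ →₀ ℚ, cmb e c ∈ (sob m).TestI := fun c =>
    H561.cmb_testI (gam hS) (bei hS) hst.testI c
  filter_upwards [lin_sw hS hst h, gr_sw hS hst hn, ho_sw hS hst hn,
    ae_all_iff.2 fun c => h.ric.ric _ (hc c), ae_all_iff.2 fun c => h.ric.ricOff _ (hc c)]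
    with x A B C D1 D2 c
  by_cases hx : dist p x < r1 s₀ C₀
  · filter_upwards [Ioo_of_Ioc (D1 c hx), Ioo_of_Ioc (A c), Ioo_of_Ioc (B c),
      ae_restrict_mem measurableSet_Ioo] with s a1 a2 a3 hs
    have hsub : Ioo s 1 ⊆ Ioc 0 1 := fun r hr => ⟨hs.1.trans hr.1, hr.2.le⟩
    filter_upwards [ae_restrict_of_ae_restrict_of_subset hsub a1,
      ae_restrict_of_ae_restrict_of_subset hsub (A c),
      ae_restrict_of_ae_restrict_of_subset hsub (B c), ae_restrict_mem measurableSet_Ioo]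
      with t b1 b2 b3 ht
    rw [← a2, ← a3, ← b2, ← b3]
    refine (b1 ht.1).trans (le_of_eq ?_)
    refine intervalIntegral.integral_congr_ae_restrict ?_
    have hsub2 : uIoc s t ⊆ Ioc 0 1 := by
      rw [uIoc_of_le ht.1.le]
      exact fun r hr => ⟨hs.1.trans hr.1, hr.2.trans ht.2.le⟩
    filter_upwards [ae_restrict_of_ae_restrict_of_subset hsub2 (A c),
      ae_restrict_of_ae_restrict_of_subset hsub2 (B c),
      ae_restrict_of_ae_restrict_of_subset hsub2 (C c)] with r c1 c2 c3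
    rw [← c1, ← c2, ← H561.cmb_clm, ← c3]
    unfold vel
    rw [map_smul, real_inner_smul_right, real_inner_smul_right, spd_in hx]
    show 2 * spd1 p s₀ x * ⟪Hs (cmb e c) r (Y r x), HO (cmb e c) (Y r x)
      (rdir Gr p s₀ C₀ (Y r x))⟫_ℝ - ‖Hs (cmb e c) r (Y r x)‖ ^ 2 - κ * spd1 p s₀ x ^ 2 *
        (‖Gr (cmb e c) (Y r x)‖ ^ 2 - ⟪Gr (cmb e c) (Y r x), rdir Gr p s₀ C₀ (Y r x)⟫_ℝ ^ 2) = _
    ring
  · have hY : ∀ t, Y t x = x := h.flow.off x (not_lt.1 hx)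
    filter_upwards [Ioo_of_Ioc (D2 c (not_lt.1 hx)), Ioo_of_Ioc (A c), Ioo_of_Ioc (B c),
      ae_restrict_mem measurableSet_Ioo] with s a1 a2 a3 hs
    have hsub : Ioo s 1 ⊆ Ioc 0 1 := fun r hr => ⟨hs.1.trans hr.1, hr.2.le⟩
    filter_upwards [ae_restrict_of_ae_restrict_of_subset hsub a1,
      ae_restrict_of_ae_restrict_of_subset hsub (A c),
      ae_restrict_of_ae_restrict_of_subset hsub (B c), ae_restrict_mem measurableSet_Ioo]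
      with t b1 b2 b3 ht
    rw [← a2, ← a3, ← b2, ← b3, hY, hY]
    refine (b1 ht.1).trans (le_of_eq ?_)
    refine intervalIntegral.integral_congr_ae_restrict ?_
    have hsub2 : uIoc s t ⊆ Ioc 0 1 := by
      rw [uIoc_of_le ht.1.le]
      exact fun r hr => ⟨hs.1.trans hr.1, hr.2.trans ht.2.le⟩
    filter_upwards [ae_restrict_of_ae_restrict_of_subset hsub2 (A c),
      ae_restrict_of_ae_restrict_of_subset hsub2 (B c),
      ae_restrict_of_ae_restrict_of_subset hsub2 (C c)] with r c1 c2 c3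
    rw [← c1, ← c2, ← H561.cmb_clm, ← c3]
    unfold vel
    rw [spd_out hx, zero_smul, map_zero, inner_zero_right, inner_zero_right, hY]
    ring

theorem endp (hS : Std m K N) [SFinite m] (hst : Stat (sob m) Gr HO e)
    (h : COut m K N κ Gr HO e p s₀ C₀ φ ρ R Y Hs Λ) :
    ∀ c : ℕ →₀ ℚ, ∀ w ∈ (sob m).TestI, 0 ≤ w → ∃ A : ℝ,
    ∀ᵐ s ∂(volume.restrict (Ioo (1 / 2 : ℝ) 1)),
      Integrable (fun x => w x * ⟪cmb (fun i => Hs (e i) s (Y s x)) c,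
        cmb (fun i => Gr (e i) (Y s x)) c⟫_ℝ) m ∧
      (sob m).wH (cl m (zr p s₀ C₀ 1)) (cmb e c) w
        ≤ ∫ x, w x * ⟪cmb (fun i => Hs (e i) s (Y s x)) c,
            cmb (fun i => Gr (e i) (Y s x)) c⟫_ℝ ∂m + A * (1 - s) := by
  intro c w hw hw0
  have hn := ns' hS.hN h.flow
  obtain ⟨A, hA⟩ := h.ric.fin _ (H561.cmb_testI (gam hS) (bei hS) hst.testI c) w hw hw0
  refine ⟨A, ?_⟩
  have hsub : Ioo (1 / 2 : ℝ) 1 ⊆ Ioc 0 1 := fun r hr => ⟨by linarith [hr.1], hr.2.le⟩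
  filter_upwards [hA, ae_restrict_of_ae_restrict_of_subset hsub (lin_cmb hS hst h.lin c),
    ae_restrict_mem measurableSet_Ioo] with s a1 a2 hs
  have h1 : (fun x => w x * ⟪Hs (cmb e c) s (Y s x), Gr (cmb e c) (Y s x)⟫_ℝ) =ᵐ[m]
      fun x => w x * ⟪cmb (fun i => Hs (e i) s (Y s x)) c,
        cmb (fun i => Gr (e i) (Y s x)) c⟫_ℝ := by
    filter_upwards [a2, hn.ae_t (H561.cmb_gr (gam hS) (bei hS) hst.grad hst.testI c) (hsub hs)]
      with x b1 b2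
    rw [b1, b2]
  refine ⟨a1.1.congr h1, ?_⟩
  rw [← integral_congr_ae h1]
  exact a1.2

/-- the junction, given the Lewy–Stampacchia field -/
theorem flowH (hS : Std m K N) [SFinite m] (hs : 0 < s₀) (hC : 0 < C₀)
    (hst : Stat (sob m) Gr HO e)
    (h : COut m K N κ Gr HO e p s₀ C₀ φ ρ R Y Hs Λ)
    (hls : ∀ s ∈ Ioo (0 : ℝ) 1, ∃ A : ℝ, ∀ᵐ t ∂(volume.restrict (Ioo s (1 - s))), ∀ ε > 0,
      ∃ h ∈ (sob m).TestI, (sob m).nrm2 h + I ((sob m).lap h ^ 2) ≤ A ∧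
        ∫⁻ x, ENNReal.ofReal (‖Gr h (Y t x) - vel Gr p s₀ C₀ Y t x‖ ^ 2) ∂m ≤ ENNReal.ofReal ε) :
    FlowH Gr HO e κ p s₀ C₀ Y (fun i => Hs (e i)) Λ where
  flow := flow hS hs hC hst h.lim h.flow h.sec hls
  hmeas := fun i => h.meas _ (hst.testI i)
  lmeas := h.measΛ
  lsq := lsq hS h
  bound := bound hS hst h
  symm := symm hS hst h
  span := span hS hst h
  ricc := ricc hS hst h
  endp := endp hS hst h

end main

/-- The Lewy–Stampacchia row: `Flow.ls`. -/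
def LSF : Prop :=
  ∀ (M : Type u) [MetricSpace M] [CompleteSpace M] [SecondCountableTopology M] [MeasurableSpace M]
    [BorelSpace M] (m : Measure M) (K N : ℝ) (P : ℝ → (M →ₘ[m] ℝ) → (M →ₘ[m] ℝ))
    (p : M) (s₀ C₀ : ℝ), CHyp M m K N P p s₀ C₀ →
    ∀ (E : Type) [NormedAddCommGroup E] [InnerProductSpace ℝ E] [CompleteSpace E]
    (Gr : (M →ₘ[m] ℝ) → M → E) (HO : (M →ₘ[m] ℝ) → M → E →L[ℝ] E) (e : ℕ → M →ₘ[m] ℝ),
    Stat (sob m) Gr HO e →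
    ∀ (φ ρ : ℝ → M →ₘ[m] ℝ) (R : ℝ → ℝ → (M →ₘ[m] ℝ) → (M →ₘ[m] ℝ)) (Y : ℝ → M → M),
      Lim m K N p s₀ C₀ φ ρ R → Maps ρ R Y → RFlow m K N p s₀ C₀ Y →
      ∀ s ∈ Ioo (0 : ℝ) 1, ∃ A : ℝ, ∀ᵐ t ∂(volume.restrict (Ioo s (1 - s))), ∀ ε > 0,
      ∃ h ∈ (sob m).TestI, (sob m).nrm2 h + I ((sob m).lap h ^ 2) ≤ A ∧
        ∫⁻ x, ENNReal.ofReal (‖Gr h (Y t x) - vel Gr p s₀ C₀ Y t x‖ ^ 2) ∂m ≤ ENNReal.ofReal ε

/-- C7 from LSF -/
theorem blk_C7 (h : LSF.{u}) : Blk_C7.{u} := by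
  intro M _ _ _ _ _ m K N κ P p s₀ C₀ hyp E _ _ _ Gr V D HO e hE φ ρ R Y Hs Λ hco
  haveI : SigmaFinite m := sf hyp.std
  exact flowH hyp.std hyp.hs hyp.hC0 hE.stat hco
    (h M m K N P p s₀ C₀ hyp E Gr HO e hE.stat φ ρ R Y hco.lim hco.maps hco.flow)

end Vale.Agent.P233.JCE
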