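import Vale.Agent.P233.H254.JCE3
import Vale.Agent.P233.U.Main
import Vale.Agent.P233.H183.ZGrad
import Vale.Agent.P233.H183.MapsAux

/-! P233: the field `Flow.ls` (velocities are strong limits of test gradients), by the theorem of
Lewy–Stampacchia with two obstacles (helper339). The proof of `exists_eta2` is helper638's. -/

set_option linter.all false

open MeasureTheory Filter Topology Set
open scoped ENNReal NNReal InnerProductSpace

universe u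

namespace Vale.Agent.P233.JCE

open Vale.Agent.P233.FA Vale.Agent.P233.PC
open Vale.Agent.P233.H638 (exists_chi)

section lim

variable {M : Type u} [MetricSpace M] [MeasurableSpace M] [BorelSpace M]
  [SecondCountableTopology M] {m : Measure M}
  {K N : ℝ} {p : M} {s₀ C₀ : ℝ} {φ ρ : ℝ → M →ₘ[m] ℝ}
  {R : ℝ → ℝ → (M →ₘ[m] ℝ) → (M →ₘ[m] ℝ)}

/-- the potentials `η_t` of Lewy–Stampacchia on `[a,b] ⊂ (0,1)` -/
theorem exists_eta2 (hC : IsDir (sob m)) (hfin : ∀ (x : M) (r : ℝ), m (Metric.ball x r) < ∞)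
    (hN : 0 < N) (hs : 0 < s₀) (hC0 : 0 < C₀) (hL : Lim m K N p s₀ C₀ φ ρ R) {a b : ℝ}
    (ha : 0 < a) (hb : b < 1) :
    ∃ (K' : ℝ) (η h : ℝ → M →ₘ[m] ℝ), 0 ≤ K' ∧ ∀ t ∈ Icc a b, (sob m).IsLap (η t) (h t) ∧
      MemLp (η t) ∞ m ∧ I (η t ^ 2) ≤ K' ∧ I (h t ^ 2) ≤ K' ∧ I ((sob m).Γ (η t) (η t)) ≤ K' ∧
      ∀ g ∈ (sob m).W, ∀ᵐ x ∂m, φ t x = zc m p s₀ C₀ t x →
        (sob m).Γ (η t) g x = (sob m).Γ (zc m p s₀ C₀ t) g x := by
  haveI : SigmaFinite m := sigmaFinite_of_ball hfin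
  obtain ⟨B, hB⟩ := hL.φ_bd
  obtain ⟨R₀, hR₀⟩ := hL.φ_far
  obtain ⟨c₂, hc₂⟩ := hL.φ_lap
  by_cases hab : a ≤ b
  swap
  · exact ⟨0, fun _ => 0, fun _ => 0, le_rfl, fun t ht => absurd (ht.1.trans ht.2) hab⟩
  obtain ⟨c₁, hc₁⟩ := hL.z_lap a ⟨ha, by linarith⟩
  obtain ⟨χ, hχA, hχ1, hχ0, hχle, hχ⟩ :=
    exists_chi hfin p (max R₀ (√(2 * C₀ * (1 + s₀))))
  set c := |c₁| + |N / (1 - b)| + |c₂| with hc
  have hc0 : 0 ≤ c := by positivity
  set A := c + 2 * (|B| + C₀) with hA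
  have hA0 : 0 ≤ A := by positivity
  set V := I (χ ^ 2) with hV
  have hV0 : 0 ≤ V := I_sq_nonneg _
  have hχ2 : MemLp χ 2 m := hC.memLp χ hχA.1
  set K' := A + A ^ 2 * V with hK'
  have key : ∀ t ∈ Icc a b, ∃ η h : M →ₘ[m] ℝ, (sob m).IsLap η h ∧
      MemLp η ∞ m ∧ I (η ^ 2) ≤ K' ∧ I (h ^ 2) ≤ K' ∧ I ((sob m).Γ η η) ≤ K' ∧
      ∀ g ∈ (sob m).W, ∀ᵐ x ∂m, φ t x = zc m p s₀ C₀ t x →
        (sob m).Γ η g x = (sob m).Γ (zc m p s₀ C₀ t) g x := by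
    intro t ht
    have ht0 : 0 < t := ha.trans_le ht.1
    have ht1 : t < 1 := ht.2.trans_lt hb
    have ht01 : t ∈ Icc (0 : ℝ) 1 := ⟨ht0.le, ht1.le⟩
    have hzae := H372.zc_ae (m := m) (p := p) hs ht0.le hC0.le
    have hzb : ∀ᵐ x ∂m, |zc m p s₀ C₀ t x| ≤ C₀ := by
      filter_upwards [hzae] with x hx
      rw [hx, abs_le]
      exact ⟨H790.zr_ge p (by linarith) hC0.le x, (H790.zr_nonpos p s₀ C₀ t x).trans hC0.le⟩
    have hcut : ∀ᵐ x ∂m, (φ t x ≠ 0 ∨ zc m p s₀ C₀ t x ≠ 0) → χ x = 1 := by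
      filter_upwards [hχ, hR₀ t ht01, hzae] with x a1 a2 a3 a4
      apply a1
      rcases a4 with a4 | a4
      · by_contra hcon
        push Not at hcon
        exact a4 (a2 ((le_max_left _ _).trans hcon.le))
      · by_contra hcon
        push Not at hcon
        apply a4
        rw [a3]
        refine H372.zr_out hs ht0.le (le_trans (Real.sqrt_le_sqrt ?_)
          ((le_max_right _ _).trans hcon.le))
        gcongr
    obtain ⟨η, h, hlap, l1, l2, hηt, -, hη1, -, hh, hoff, hΓ⟩ := hC.ls_cut (c := c)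
      (φ := φ t) (u := zc m p s₀ C₀ t) (χ := χ) hc0 (hL.φ_mem t ht01) (hL.z_mem t ht01)
      (hL.φ_le t ht01) hχA hχ1 hχ0 hcut
      (fun g hg hg0 hg1 => by
        have h1 := hc₂ t ⟨ht0.le, ht1⟩ g hg.1 hg0 hg1
        have h2 : 0 ≤ I g := I_nonneg hg0
        have h3 : N / (1 - t) ≤ |N / (1 - b)| := by
          refine le_trans ?_ (le_abs_self _)
          exact div_le_div_of_nonneg_left hN.le (by linarith) (by linarith [ht.2])
        have h4 : (N / (1 - t) + c₂) * I g ≤ c * I g := by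
          refine mul_le_mul_of_nonneg_right ?_ h2
          have := le_abs_self c₂
          have := abs_nonneg c₁
          rw [hc]; linarith
        nlinarith)
      (fun g hg hg0 hg1 => by
        have h1 := hc₁ t ⟨ht.1, ht1.le⟩ g hg.1 hg0 hg1
        have h2 : 0 ≤ I g := I_nonneg hg0
        refine h1.trans (mul_le_mul_of_nonneg_right ?_ h2)
        have := le_abs_self c₁
        have h3 := abs_nonneg (N / (1 - b))
        have h4 := abs_nonneg c₂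
        rw [hc]; linarith)
    have hsum : ∀ᵐ x ∂m, |φ t x| + |zc m p s₀ C₀ t x| ≤ (|B| + C₀) * χ x := by
      filter_upwards [hcut, hB t ht01, hzb, nonneg_iff_ae.1 hχ0] with x a1 a2 a3 a4
      by_cases hx : φ t x ≠ 0 ∨ zc m p s₀ C₀ t x ≠ 0
      · rw [a1 hx, mul_one]
        have := le_abs_self B
        linarith
      · push Not at hx
        rw [hx.1, hx.2, abs_zero, add_zero]
        positivity
    have hhA : ∀ᵐ x ∂m, |h x| ≤ A * χ x := by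
      filter_upwards [hh, hsum] with x a1 a2
      rw [hA]; nlinarith
    have hηA : ∀ᵐ x ∂m, |η x| ≤ A * χ x := by
      filter_upwards [le_iff_ae.1 l1, le_iff_ae.1 l2, hsum, nonneg_iff_ae.1 hχ0]
        with x a1 a2 a3 a4
      have h5 : |η x| ≤ |φ t x| + |zc m p s₀ C₀ t x| := by
        rw [abs_le]
        constructor
        · linarith [neg_abs_le (φ t x), abs_nonneg (zc m p s₀ C₀ t x)]
        · linarith [le_abs_self (zc m p s₀ C₀ t x), abs_nonneg (φ t x)]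
      have h6 : 0 ≤ (c + (|B| + C₀)) * χ x := by positivity
      calc |η x| ≤ (|B| + C₀) * χ x := h5.trans a3
        _ ≤ (|B| + C₀) * χ x + (c + (|B| + C₀)) * χ x := by linarith
        _ = A * χ x := by rw [hA]; ring
    have hh2 : I (h ^ 2) ≤ A ^ 2 * V := by
      rw [hV, ← I_smul]
      refine I_mono (mem_sq hlap.2.1) (mem_smul _ (mem_sq hχ2)) ?_
      rw [le_iff_ae]
      filter_upwards [sq_ae h, smul_ae (χ ^ 2) (A ^ 2), sq_ae χ, hhA] with x a1 a2 a3 a4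
      rw [a1, a2, a3, ← sq_abs, ← mul_pow]
      gcongr
    have hη2 : I (η ^ 2) ≤ A ^ 2 * V := by
      rw [hV, ← I_smul]
      refine I_mono (mem_sq (hC.memLp η hlap.1)) (mem_smul _ (mem_sq hχ2)) ?_
      rw [le_iff_ae]
      filter_upwards [sq_ae η, smul_ae (χ ^ 2) (A ^ 2), sq_ae χ, hηA] with x a1 a2 a3 a4
      rw [a1, a2, a3, ← sq_abs, ← mul_pow]
      gcongr
    refine ⟨η, h, hlap, hηt, hη2.trans (by linarith), hh2.trans (by linarith), ?_,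
      fun g hg => ?_⟩
    · have e1 : I ((sob m).Γ η η) = -I (h * η) := hlap.2.2 η hlap.1
      have e2 := I_abs_le hlap.2.1 (hC.memLp η hlap.1)
      have e3 : √(I (h ^ 2)) * √(I (η ^ 2)) ≤ √(A ^ 2 * V) * √(A ^ 2 * V) := by gcongr
      rw [Real.mul_self_sqrt (by positivity)] at e3
      rw [e1]
      have := (abs_le.1 e2).1
      linarith
    · filter_upwards [hΓ g hg] with x a1 a2
      exact (a1 a2).1
  choose! η h hηh using key
  exact ⟨K', η, h, by positivity, fun t ht => hηh t ht⟩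

end lim

section ls

variable {M : Type u} [MetricSpace M] [MeasurableSpace M] [BorelSpace M]
  [SecondCountableTopology M] {m : Measure M}
  {K N : ℝ} {p : M} {s₀ C₀ : ℝ} {φ ρ : ℝ → M →ₘ[m] ℝ}
  {R : ℝ → ℝ → (M →ₘ[m] ℝ) → (M →ₘ[m] ℝ)} {Y : ℝ → M → M}
variable {E : Type} [NormedAddCommGroup E] [InnerProductSpace ℝ E]
variable {Gr : (M →ₘ[m] ℝ) → M → E} {HO : (M →ₘ[m] ℝ) → M → E →L[ℝ] E} {e : ℕ → M →ₘ[m] ℝ}

/-- the velocity is a gradient -/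
theorem vel_eq (hS : Std m K N) (hs : 0 < s₀) (hC0 : 0 < C₀) (hG : IsGrad (sob m) Gr)
    (hL : Lim m K N p s₀ C₀ φ ρ R) (hM : Maps ρ R Y) (hF : RFlow m K N p s₀ C₀ Y) {t : ℝ}
    (ht : t ∈ Ioo (0 : ℝ) 1) {η : M →ₘ[m] ℝ} (hη : η ∈ (sob m).W)
    (hloc : ∀ g ∈ (sob m).W, ∀ᵐ x ∂m, φ t x = zc m p s₀ C₀ t x →
        (sob m).Γ η g x = (sob m).Γ (zc m p s₀ C₀ t) g x) :
    ∀ᵐ x ∂m, Gr η (Y t x) = vel Gr p s₀ C₀ Y t x := by
  have ht' : t ∈ Ioc (0 : ℝ) 1 := ⟨ht.1, ht.2.le⟩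
  have ht'' : t ∈ Icc (0 : ℝ) 1 := ⟨ht.1.le, ht.2.le⟩
  have hz : zc m p s₀ C₀ t ∈ (sob m).W := (hL.z_mem t ht'').1
  have hC := gam hS
  have h1 : ∀ᵐ y ∂m, φ t y = zc m p s₀ C₀ t y → Gr η y = Gr (zc m p s₀ C₀ t) y := by
    filter_upwards [hloc η hη, hloc _ hz, hG.inner _ hη _ hη, hG.inner _ hη _ hz,
      hG.inner _ hz _ hz] with y a1 a2 a3 a4 a5 hy
    have b1 := a1 hy
    have b2 := a2 hy
    rw [hC.symm _ hz _ hη, b2] at b1
    rw [real_inner_self_eq_norm_sq] at a3 a5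
    rw [← sub_eq_zero, ← norm_eq_zero, ← sq_eq_zero_iff, norm_sub_sq_real, a3, a4, a5, b1, b2]
    ring
  have h2 : ∀ᵐ y ∂m, 0 < ρ t y → φ t y = zc m p s₀ C₀ t y := by
    filter_upwards [hL.ρ_supp t ht, le_iff_ae.1 (hL.φ_le t ht'')] with y a1 a2 a3
    rcases eq_or_lt_of_le a2 with h | h
    · exact h
    · exact absurd (a1 h) a3.ne'
  filter_upwards [H183.map_ae hM ht' h1, H183.map_ae hM ht' h2, H183.map_pos hM ht',
    H183.map_ae hM ht' (H183.Gr_zc (p := p) hG hC.toIsDir hS.hfin hs hC0 ht''),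
    H183.cz_flow hs hC0 hF] with x a1 a2 a3 a4 a5
  rw [a1 (a2 a3), a4]
  show _ = spd p s₀ C₀ x • Gr (dc m p s₀ C₀) (Y t x)
  by_cases hx : dist p x < r1 s₀ C₀
  · rw [a5.1 hx t ht'', spd_in hx]
  · rw [a5.2 (not_lt.1 hx) t ht'', spd_out hx]

theorem ls (hS : Std m K N) (hs : 0 < s₀) (hC0 : 0 < C₀) {P : ℝ → (M →ₘ[m] ℝ) → (M →ₘ[m] ℝ)}
    (hP : Heat (sob m) K P) (hst : Stat (sob m) Gr HO e)
    (hL : Lim m K N p s₀ C₀ φ ρ R) (hM : Maps ρ R Y) (hF : RFlow m K N p s₀ C₀ Y) :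
    ∀ s ∈ Ioo (0 : ℝ) 1, ∃ A : ℝ, ∀ᵐ t ∂(volume.restrict (Ioo s (1 - s))), ∀ ε > 0,
      ∃ h ∈ (sob m).TestI, (sob m).nrm2 h + I ((sob m).lap h ^ 2) ≤ A ∧
        ∫⁻ x, ENNReal.ofReal (‖Gr h (Y t x) - vel Gr p s₀ C₀ Y t x‖ ^ 2) ∂m
          ≤ ENNReal.ofReal ε := by
  intro s hs1
  have hC := gam hS
  haveI : SigmaFinite m := sf hS
  have hn := ns' hS.hN hF
  obtain ⟨K', η, h, hK', hη⟩ := exists_eta2 hC.toIsDir hS.hfin hS.hN hs hC0 hL (a := s)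
    (b := 1 - s) hs1.1 (by linarith [hs1.1])
  refine ⟨3 * K', ?_⟩
  filter_upwards [ae_restrict_mem measurableSet_Ioo] with t ht ε hε
  obtain ⟨b1, b2, b3, b4, b5, b6⟩ := hη t ⟨ht.1.le, ht.2.le⟩
  have ht0 : t ∈ Ioo (0 : ℝ) 1 := ⟨hs1.1.trans ht.1, by linarith [ht.2, hs1.1]⟩
  have hW := b1.1
  have h2 := hC.memLp _ hW
  have hvel := vel_eq hS hs hC0 hst.grad hL hM hF ht0 hW b6
  obtain ⟨B, hB⟩ := hn.comp t ⟨ht0.1, ht0.2.le⟩
  have hB' := hB t ⟨le_rfl, ht0.2.le⟩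
  -- choose the time of regularization
  have hcont := hP.contW _ hW 0 le_rfl
  rw [hP.zero _ h2] at hcont
  have hpos : 0 < ε / ((B : ℝ) + 1) := by positivity
  have h3 : ∀ᶠ δ in 𝓝[Ici (0 : ℝ)] 0, (sob m).nrm2 (P δ (η t) - η t) < ε / ((B : ℝ) + 1) :=
    hcont.eventually (gt_mem_nhds hpos)
  have h4 : ∀ᶠ δ in 𝓝[Ioi (0 : ℝ)] 0, (sob m).nrm2 (P δ (η t) - η t) < ε / ((B : ℝ) + 1) :=
    h3.filter_mono (nhdsWithin_mono _ Ioi_subset_Ici_self)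
  obtain ⟨δ, hδ, hδ0⟩ := (h4.and self_mem_nhdsWithin).exists
  have hδ0 : 0 < δ := hδ0
  have hT : P δ (η t) ∈ (sob m).TestI := hP.testI' δ hδ0 _ h2 b2
  have hTW : P δ (η t) ∈ (sob m).W := (hC.mem_test_iff.1 hT.1).1
  refine ⟨P δ (η t), hT, ?_, ?_⟩
  · have c1 := hP.contr δ hδ0.le _ h2
    have c2 := (hP.memW δ hδ0.le _ hW).2
    have c3 : (sob m).lap (P δ (η t)) = P δ (h t) := hC.toIsDir.lap_eq (hP.lapP δ hδ0.le _ _ b1)
    have c4 := hP.contr δ hδ0.le _ b1.2.1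
    unfold Calc.nrm2
    rw [c3]
    linarith
  · have hd : P δ (η t) - η t ∈ (sob m).W := hC.sub_mem hTW hW
    have k1 : ∀ᵐ y ∂m, Gr (P δ (η t) - η t) y = Gr (P δ (η t)) y - Gr (η t) y :=
      hst.grad.sub hC.toIsDir hTW hW
    have hmeas : Measurable fun y => ENNReal.ofReal (‖Gr (P δ (η t) - η t) y‖ ^ 2) :=
      ((hst.gmeas _ hd).norm.measurable.pow_const 2).ennreal_ofReal
    have k2 : ∫⁻ x, ENNReal.ofReal (‖Gr (P δ (η t)) (Y t x) - vel Gr p s₀ C₀ Y t x‖ ^ 2) ∂m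
        = ∫⁻ x, ENNReal.ofReal (‖Gr (P δ (η t) - η t) (Y t x)‖ ^ 2) ∂m := by
      refine lintegral_congr_ae ?_
      filter_upwards [hvel, hn.ae_t k1 ⟨ht0.1, ht0.2.le⟩] with x a1 a2
      rw [a2, a1]
    rw [k2]
    refine (hn.lint_t hB' hmeas).trans ?_
    have k3 : ∫⁻ y, ENNReal.ofReal (‖Gr (P δ (η t) - η t) y‖ ^ 2) ∂m
        = ENNReal.ofReal (I ((sob m).Γ (P δ (η t) - η t) (P δ (η t) - η t))) := by
      rw [← hst.grad.int_norm_sq hd, ofReal_integral_eq_lintegral_ofReal]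
      · exact (memLp_two_iff_integrable_sq_norm (hst.grad.mem _ hd).1).1 (hst.grad.mem _ hd)
      · exact Eventually.of_forall fun y => sq_nonneg _
    rw [k3]
    have k4 : I ((sob m).Γ (P δ (η t) - η t) (P δ (η t) - η t)) ≤ ε / ((B : ℝ) + 1) :=
      (hC.toIsDir.E_le_nrm2 _).trans hδ.le
    calc (B : ℝ≥0∞) * ENNReal.ofReal (I ((sob m).Γ (P δ (η t) - η t) (P δ (η t) - η t)))
        ≤ (B : ℝ≥0∞) * ENNReal.ofReal (ε / ((B : ℝ) + 1)) := by gcongr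
      _ = ENNReal.ofReal ((B : ℝ) * (ε / ((B : ℝ) + 1))) := by
          rw [ENNReal.ofReal_mul (NNReal.coe_nonneg B), ENNReal.ofReal_coe_nnreal]
      _ ≤ ENNReal.ofReal ε := by
          refine ENNReal.ofReal_le_ofReal ?_
          rw [mul_div_assoc', div_le_iff₀ (by positivity)]
          nlinarith [B.2]

end ls

theorem lsf : LSF.{u} := by
  intro M _ _ _ _ _ m K N P p s₀ C₀ hyp E _ _ _ Gr HO e hst φ ρ R Y hL hM hF
  exact ls hyp.std hyp.hs hyp.hC0 hyp.heat hst hL hM hF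

theorem blk_C7' : Blk_C7.{u} := blk_C7 lsf

end Vale.Agent.P233.JCE
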