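import Vale.Agent.P233.RA.IfST
import Vale.Agent.P233.H866.RDens2
import Mathlib.MeasureTheory.Function.Egorov

/-! P233, RCDA, block S3: the small time asymptotics is uniform on large sets (Egorov). -/

set_option linter.all false

open MeasureTheory Filter Topology Set
open scoped ENNReal NNReal MeasureTheory

universe u

namespace Vale.Agent.P233.RA

namespace S3

theorem aK_pos (K : ℝ) {s : ℝ} (hs : 0 < s) : 0 < aK K s := by
  unfold aK
  have h : 1 / s - K / 6 + K ^ 2 / 108 * s = ((K * s - 9) ^ 2 / 108 + 1 / 4) / s := by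
    field_simp
    ring
  rw [h]
  positivity

theorem tau_pos (j : ℕ) : 0 < tau j := by
  unfold tau
  positivity

theorem tau_tendsto : Tendsto tau atTop (𝓝[>] 0) := by
  refine tendsto_nhdsWithin_iff.2 ⟨?_, Eventually.of_forall fun j => tau_pos j⟩
  exact tendsto_one_div_add_atTop_nhds_zero_nat

variable {M : Type u} [MetricSpace M] [ProperSpace M] [MeasurableSpace M] [BorelSpace M]
  {m : Measure M} {n : ℕ} {K θ δ : ℝ}

theorem sigmaFinite (hN : NSp m n K θ) : SigmaFinite m := by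
  rcases isEmpty_or_nonempty M with h | ⟨⟨p⟩⟩
  · have : m = 0 := Measure.eq_zero_of_isEmpty m
    rw [this]
    infer_instance
  · exact ⟨⟨⟨fun n => Metric.ball p n, fun _ => trivial, fun n => hN.fin p n,
      Metric.iUnion_ball_nat p⟩⟩⟩

theorem KH_nonneg (hθ : 0 < θ) (s : ℝ) (hs : 0 < s) (x y : M) : 0 ≤ KH n K θ s x y := by
  unfold KH
  have := H866.ga_pos (n := n) hθ
  positivity

theorem gg_nonneg (x y : M) : 0 ≤ gg x y := by
  unfold gg
  positivity

theorem meas_tht [SigmaFinite m] (f : ℝ → ℝ) (hf : Measurable f) (η : ℝ) :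
    StronglyMeasurable fun x : M => ∫ y in Metric.ball x η, f (dist x y) ∂m := by
  have e : (fun x : M => ∫ y in Metric.ball x η, f (dist x y) ∂m)
      = fun x => ∫ y, ({z : M × M | dist z.2 z.1 < η}.indicator (fun z => f (dist z.1 z.2)) (x, y))
        ∂m := by
    funext x
    rw [← integral_indicator Metric.isOpen_ball.measurableSet]
    rfl
  rw [e]
  have h1 : MeasurableSet {z : M × M | dist z.2 z.1 < η} :=
    measurableSet_lt (measurable_snd.dist measurable_fst) measurable_const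
  have h2 : Measurable ({z : M × M | dist z.2 z.1 < η}.indicator
      (fun z : M × M => f (dist z.1 z.2))) :=
    (hf.comp (measurable_fst.dist measurable_snd)).indicator h1
  exact h2.stronglyMeasurable.integral_prod_right' (ν := m)

theorem KH_eq (s : ℝ) (x y : M) : KH n K θ s x y = (ga n θ)⁻¹ * s ^ (-((n : ℝ) / 2))
    * Real.exp (-(aK K s * (dist x y ^ 2 / 2)) - bK n K * s) := rfl

theorem meas1 [SigmaFinite m] (η s : ℝ) : StronglyMeasurable (tht m n K θ η s) :=
  meas_tht (m := m) (fun r => (ga n θ)⁻¹ * s ^ (-((n : ℝ) / 2))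
    * Real.exp (-(aK K s * (r ^ 2 / 2)) - bK n K * s)) (by fun_prop) η

theorem meas2 [SigmaFinite m] (η s : ℝ) : StronglyMeasurable (mom m n K θ η s) :=
  meas_tht (m := m) (fun r => aK K s * (r ^ 2 / 2) * ((ga n θ)⁻¹ * s ^ (-((n : ℝ) / 2))
    * Real.exp (-(aK K s * (r ^ 2 / 2)) - bK n K * s))) (by fun_prop) η

theorem mono1 (hN : NSp m n K θ) {η η' s : ℝ} (hs : 0 < s) (h : η ≤ η') (x : M) :
    tht m n K θ η s x ≤ tht m n K θ η' s x := by
  unfold tht
  refine setIntegral_mono_set ?_ ?_ ?_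
  · have := H866.int_KH (n := n) (K := K) (θ := θ) (s := s) (hN.fin x η') 0
    simpa using this
  · exact Eventually.of_forall fun y => KH_nonneg hN.θ_pos s hs x y
  · exact (Metric.ball_subset_ball h).eventuallyLE

theorem mono2 (hN : NSp m n K θ) {η η' s : ℝ} (hs : 0 < s) (h : η ≤ η') (x : M) :
    mom m n K θ η s x ≤ mom m n K θ η' s x := by
  unfold mom
  refine setIntegral_mono_set ?_ ?_ ?_
  · have := (H866.int_KH (n := n) (K := K) (θ := θ) (s := s) (hN.fin x η') 1).const_mul (aK K s)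
    simpa [mul_assoc, IntegrableOn] using this
  · exact Eventually.of_forall fun y => mul_nonneg (mul_nonneg (aK_pos K hs).le (gg_nonneg y x))
      (KH_nonneg hN.θ_pos s hs x y)
  · exact (Metric.ball_subset_ball h).eventuallyLE

end S3

open S3

theorem blk_S3 : Blk_S3.{u} := by
  intro M _ _ _ _ m n K θ δ hS μ _ hμ ε hε
  haveI : SigmaFinite m := sigmaFinite hS.hN
  rcases isEmpty_or_nonempty M with hM | ⟨⟨p⟩⟩
  · refine ⟨∅, ⟨MeasurableSet.empty, Bornology.isBounded_empty,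
      fun η _ ε _ => Eventually.of_forall fun j x hx => hx.elim⟩, ?_⟩
    rw [Measure.eq_zero_of_isEmpty μ]
    simp
  -- half of `ε`
  obtain ⟨w, hw, hws⟩ := ENNReal.exists_pos_sum_of_countable' (ε := ε / 2)
    (ENNReal.half_pos hε.ne').ne' {q : ℚ // 0 < q}
  have key : ∀ q : {q : ℚ // 0 < q}, ∃ t, MeasurableSet t ∧ μ t ≤ w q ∧
      TendstoUniformlyOn (fun (j : ℕ) (x : M) =>
        ((tht m n K θ (q.1 : ℝ) (tau j) x, mom m n K θ (q.1 : ℝ) (tau j) x) : ℝ × ℝ))
        (fun _ => ((1 : ℝ), (n : ℝ) / 2)) atTop tᶜ := by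
    intro q
    have hq : (0 : ℝ) < (q.1 : ℝ) := by exact_mod_cast q.2
    have h0 : 0 < min (w q) 1 := lt_min (hw q) one_pos
    have h1 : min (w q) 1 ≠ ∞ := (min_le_right _ _).trans_lt ENNReal.one_lt_top |>.ne
    obtain ⟨t, ht, htm, hu⟩ := tendstoUniformlyOn_of_ae_tendsto' (μ := μ)
      (f := fun (j : ℕ) (x : M) =>
        ((tht m n K θ (q.1 : ℝ) (tau j) x, mom m n K θ (q.1 : ℝ) (tau j) x) : ℝ × ℝ))
      (g := fun _ => ((1 : ℝ), (n : ℝ) / 2))
      (fun j => (meas1 _ _).prodMk (meas2 _ _)) stronglyMeasurable_const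
      (by
        filter_upwards [hμ.ae_le hS.asy] with x hx
        obtain ⟨a, b⟩ := hx _ hq
        exact (a.comp tau_tendsto).prodMk_nhds (b.comp tau_tendsto))
      (ENNReal.toReal_pos h0.ne' h1)
    refine ⟨t, ht, htm.trans ?_, hu⟩
    rw [ENNReal.ofReal_toReal h1]
    exact min_le_left _ _
  choose t ht htm htu using key
  -- a large ball
  obtain ⟨R, hR⟩ : ∃ R : ℕ, μ (Metric.closedBall p R)ᶜ ≤ ε / 2 := by
    have h1 : Tendsto (fun R : ℕ => μ (Metric.closedBall p R)ᶜ) atTop (𝓝 0) := by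
      have h2 : ⋂ R : ℕ, (Metric.closedBall p (R : ℝ))ᶜ = ∅ := by
        rw [← compl_iUnion, Metric.iUnion_closedBall_nat, compl_univ]
      have h3 := tendsto_measure_iInter_atTop (μ := μ)
        (s := fun R : ℕ => (Metric.closedBall p (R : ℝ))ᶜ)
        (fun R => Metric.isClosed_closedBall.measurableSet.compl.nullMeasurableSet)
        (fun R R' h => compl_subset_compl.2 (Metric.closedBall_subset_closedBall (by exact_mod_cast h)))
        ⟨0, measure_ne_top _ _⟩
      rwa [h2, measure_empty] at h3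
    have h4 : (0 : ℝ≥0∞) < ε / 2 := ENNReal.half_pos hε.ne'
    obtain ⟨R, hR⟩ := (h1.eventually (gt_mem_nhds h4)).exists
    exact ⟨R, hR.le⟩
  refine ⟨(⋃ q, t q)ᶜ ∩ Metric.closedBall p R, ⟨?_, ?_, ?_⟩, ?_⟩
  · exact (MeasurableSet.iUnion ht).compl.inter Metric.isClosed_closedBall.measurableSet
  · exact Metric.isBounded_closedBall.subset inter_subset_right
  · intro η hη e he
    obtain ⟨q, hq0, hq1⟩ := exists_rat_btwn hη
    obtain ⟨r, hr0, hr1⟩ := exists_rat_btwn (lt_add_one η)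
    have hq0' : (0 : ℚ) < q := by exact_mod_cast hq0
    have hr0' : (0 : ℚ) < r := by exact_mod_cast hη.trans hr0
    have a1 := Metric.tendstoUniformlyOn_iff.1 (htu ⟨q, hq0'⟩) e he
    have a2 := Metric.tendstoUniformlyOn_iff.1 (htu ⟨r, hr0'⟩) e he
    filter_upwards [a1, a2] with j b1 b2 x hx
    have hx1 : x ∈ (t ⟨q, hq0'⟩)ᶜ := fun h => hx.1 (mem_iUnion.2 ⟨_, h⟩)
    have hx2 : x ∈ (t ⟨r, hr0'⟩)ᶜ := fun h => hx.1 (mem_iUnion.2 ⟨_, h⟩)
    have c1 := b1 x hx1
    have c2 := b2 x hx2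
    rw [Prod.dist_eq, max_lt_iff, Real.dist_eq, Real.dist_eq] at c1 c2
    dsimp only at c1 c2
    have d1 := mono1 hS.hN (tau_pos j) hq1.le x
    have d2 := mono1 hS.hN (tau_pos j) hr0.le x
    have d3 := mono2 hS.hN (tau_pos j) hq1.le x
    have d4 := mono2 hS.hN (tau_pos j) hr0.le x
    obtain ⟨⟨e1, e2⟩, e3, e4⟩ := c1.imp abs_lt.1 abs_lt.1
    obtain ⟨⟨f1, f2⟩, f3, f4⟩ := c2.imp abs_lt.1 abs_lt.1
    exact ⟨abs_le.2 ⟨by linarith, by linarith⟩, abs_le.2 ⟨by linarith, by linarith⟩⟩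
  · rw [compl_inter, compl_compl]
    calc μ ((⋃ q, t q) ∪ (Metric.closedBall p R)ᶜ)
        ≤ μ (⋃ q, t q) + μ (Metric.closedBall p R)ᶜ := measure_union_le _ _
      _ ≤ (∑' q, μ (t q)) + ε / 2 := add_le_add (measure_iUnion_le _) hR
      _ ≤ (∑' q, w q) + ε / 2 := by gcongr with q; exact htm q
      _ ≤ ε / 2 + ε / 2 := by gcongr
      _ = ε := ENNReal.add_halves ε

end Vale.Agent.P233.RA
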