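import Vale.Agent.P233.H254.InSGlue
import Vale.Agent.P233.H982.RHout
import Vale.Agent.P233.H982.RH2
import Vale.Agent.P233.H339.CY4
import Vale.Agent.P233.H732.BlkH5
import Vale.Agent.P233.H183.RS4e
import Vale.Agent.P233.H47.RS9
import Vale.Agent.P233.H866.RS5b

/-! P233, RCDA: parts H, T, S assembled: the contraction of the transport cost. -/

universe u

namespace Vale.Agent.P233.RA

theorem blk_InS : Blk_InS.{u} :=
  inS_of H982.blk_H1 H982.blk_H2a H982.blk_H2b H982.blk_H2c H982.blk_H3b H339.blk_H4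
    (H732.blk_S1_of H339.blk_H4)

theorem blk_ST : Blk_ST.{u} :=
  H866.blk_ST_of' blk_InS blk_S3 H183.blk_S4 (H47.blk_S25_of H183.blk_S4)

end Vale.Agent.P233.RA
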